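import Vale.Agent.P092.R2.H32.LR
import Vale.Agent.P092.R2.H381.Bg0

/-!
Long root elements of `Sp_4(ℤ)`, in the notation of `H381`.
-/

open Matrix

namespace Vale.Agent.P092.R2.H32

theorem long_root : ∃ N : ℕ, ∀ a b c d : ℤ, a * d - b * c = 1 →
    H381.Bd N (fromBlocks !![a, 0; 0, 1] !![b, 0; 0, 0] !![c, 0; 0, 0] !![d, 0; 0, 1] :
      Matrix (Fin 2 ⊕ Fin 2) (Fin 2 ⊕ Fin 2) ℤ) :=
  ⟨13, fun _ _ _ _ h => pn_lr h⟩

end Vale.Agent.P092.R2.H32
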