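import Vale.Agent.P092.R2.H32.T2
import Vale.Agent.P092.R2.H559.Defs

/-!
Property (T) for `ℤ^{2n} ⋊ Sp_{2n}(ℤ)` and its twist, from bounded generation of `Sp_{2n}(ℤ)` by
the Siegel parabolic and the Weyl element `J`.
-/

set_option linter.all false

open Matrix
open scoped Pointwise

namespace Vale.Agent.P092.R2.H32

open Vale.Agent.P092.R2.H559

variable {n : ℕ}

theorem it_mul_tr (h : GL (Fin n) ℤ) : it h * (h : Matrix (Fin n) (Fin n) ℤ)ᵀ = 1 := by
  rw [it, ← transpose_mul, Par.gl_mul_inv, transpose_one]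

/-- the symplectic matrix of an element of the parabolic -/
noncomputable def blockM (p : Par n) : Matrix (Fin n ⊕ Fin n) (Fin n ⊕ Fin n) ℤ :=
  fromBlocks (p.h : Matrix (Fin n) (Fin n) ℤ) (p.S * it p.h) 0 (it p.h)

theorem blockM_mem (p : Par n) : blockM p ∈ symplecticGroup (Fin n) ℤ := by
  rw [SymplecticGroup.mem_iff, blockM, J, fromBlocks_transpose, fromBlocks_multiply,
    fromBlocks_multiply]
  have e1 : (it p.h)ᵀ = ((p.h⁻¹ : GL (Fin n) ℤ) : Matrix (Fin n) (Fin n) ℤ) := by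
    rw [it, transpose_transpose]
  congr 1
  · simp only [Matrix.mul_zero, Matrix.mul_one, zero_add, Matrix.mul_neg, Matrix.neg_mul,
      transpose_mul, add_zero]
    rw [Matrix.mul_assoc, it_mul_tr, Matrix.mul_one, e1, ← Matrix.mul_assoc, Par.gl_mul_inv,
      Matrix.one_mul, p.symm, add_neg_cancel]
  · simp only [Matrix.mul_zero, Matrix.mul_one, zero_add, Matrix.mul_neg, Matrix.neg_mul,
      transpose_zero, add_zero]
    rw [e1, Par.gl_mul_inv]
  · simp only [Matrix.mul_zero, Matrix.mul_one, zero_add, Matrix.mul_neg, Matrix.neg_mul,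
      transpose_zero, Matrix.zero_mul, neg_zero, add_zero]
    rw [it_mul_tr]
  · simp

/-- the embedding of the parabolic in `Sp_{2n}(ℤ)` -/
noncomputable def block : Par n →* Sp n where
  toFun p := ⟨blockM p, blockM_mem p⟩
  map_one' := by
    ext1
    change blockM 1 = 1
    rw [blockM, Par.one_S, Par.one_h, it_one, Matrix.zero_mul, Units.val_one, fromBlocks_one]
  map_mul' p q := by
    ext1
    change blockM (p * q) = blockM p * blockM q
    rw [blockM, blockM, blockM, fromBlocks_multiply]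
    simp only [Par.mul_S, Par.mul_h, Units.val_mul, it_mul, Matrix.mul_zero, Matrix.zero_mul,
      add_zero, zero_add]
    congr 1
    rw [Matrix.add_mul, ← Matrix.mul_assoc, ← Matrix.mul_assoc,
      add_comm (p.S * it p.h * it q.h)]
    congr 1
    calc (p.h : Matrix (Fin n) (Fin n) ℤ) * q.S * (p.h : Matrix (Fin n) (Fin n) ℤ)ᵀ *
          it p.h * it q.h = (p.h : Matrix (Fin n) (Fin n) ℤ) * q.S *
          ((p.h : Matrix (Fin n) (Fin n) ℤ)ᵀ * it p.h) * it q.h := by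
          simp only [Matrix.mul_assoc]
      _ = _ := by rw [tr_mul_it, Matrix.mul_one, Matrix.mul_assoc]

theorem mt_block (p : Par n) : mt (block p) = blockM p := rfl

/-- a pair of vectors as a vector -/
def pr (a : AA n) : Lat n := Sum.elim a.1 a.2

theorem pr_inl (a : AA n) (i : Fin n) : pr a (Sum.inl i) = a.1 i := rfl
theorem pr_inr (a : AA n) (i : Fin n) : pr a (Sum.inr i) = a.2 i := rfl

theorem pr_add (a b : AA n) : pr (a + b) = pr a + pr b := by
  ext i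
  rcases i with i | i <;> rfl

theorem mt_block_mulVec (p : Par n) (a : AA n) : mt (block p) *ᵥ pr a = pr (p • a) := by
  rw [mt_block, blockM, fromBlocks_mulVec]
  have e1 : pr a ∘ Sum.inl = a.1 := rfl
  have e2 : pr a ∘ Sum.inr = a.2 := rfl
  rw [e1, e2, zero_mulVec, zero_add, pr, smul_fst, smul_snd, mulVec_mulVec]

/-- `G_0 → ℤ^{2n} ⋊ Sp_{2n}(ℤ)` -/
noncomputable def f0 (n : ℕ) : GG n 0 →* Gam n where
  toFun x := ⟨Multiplicative.ofAdd (pr x.a), block x.p⟩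
  map_one' := by
    ext1
    · change Multiplicative.ofAdd (pr (0 : AA n)) = 1
      have : pr (0 : AA n) = 0 := by ext i; rcases i with i | i <;> rfl
      rw [this]
      rfl
    · change block (1 : Par n) = 1
      rw [map_one]
  map_mul' x y := by
    ext1
    · change Multiplicative.ofAdd (pr (x.a + x.p • y.a + (bb n 0).b x.p y.p)) =
        Multiplicative.ofAdd (pr x.a + mt (block x.p) *ᵥ pr y.a)
      have : (bb n 0).b x.p y.p = 0 := by
        rw [bb_b, zero_smul]; rfl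
      rw [this, add_zero, pr_add, mt_block_mulVec]
    · change block (x.p * y.p) = block x.p * block y.p
      rw [map_mul]

/-- the affine part of the embedding of `G_1` -/
def af (x : GG n 1) : AA n := (2 : ℤ) • x.a + (x.p.S.diag, 0)

/-- `G_1 → ℤ^{2n} ⋊ Sp_{2n}(ℤ)` -/
noncomputable def f1 (n : ℕ) : GG n 1 →* Gam n where
  toFun x := ⟨Multiplicative.ofAdd (pr (af x)), block x.p⟩
  map_one' := by
    ext1
    · change Multiplicative.ofAdd (pr ((2 : ℤ) • (0 : AA n) + ((0 : Matrix (Fin n) (Fin n) ℤ).diag,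
        (0 : Fin n → ℤ)))) = 1
      have : pr ((2 : ℤ) • (0 : AA n) + ((0 : Matrix (Fin n) (Fin n) ℤ).diag,
        (0 : Fin n → ℤ))) = 0 := by
        rw [smul_zero, zero_add]
        ext i; rcases i with i | i <;> rfl
      rw [this]
      rfl
    · change block (1 : Par n) = 1
      rw [map_one]
  map_mul' x y := by
    ext1
    · change Multiplicative.ofAdd (pr (af (x * y))) =
        Multiplicative.ofAdd (pr (af x) + mt (block x.p) *ᵥ pr (af y))
      rw [mt_block_mulVec, ← pr_add]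
      congr 2
      rw [af, af, af, Tw.mul_a, Tw.mul_p, bb_b, one_smul, smul_add, smul_add, smul_add,
        Par.mul_S, diag_add]
      have h1 : (2 : ℤ) • ((β (x.p.h : Matrix (Fin n) (Fin n) ℤ) y.p.S, 0) : AA n) =
          (twoβ (x.p.h : Matrix (Fin n) (Fin n) ℤ) y.p.S, 0) := by
        rw [Prod.smul_mk, two_β _ y.p.symm, smul_zero]
      have h2 : x.p • (2 : ℤ) • y.a = (2 : ℤ) • x.p • y.a := by
        rw [smul_comm]
      have h3 : x.p • ((y.p.S.diag, 0) : AA n) =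
          ((x.p.h : Matrix (Fin n) (Fin n) ℤ) *ᵥ y.p.S.diag, 0) := by
        ext1
        · rw [smul_fst]; simp
        · rw [smul_snd]; simp
      rw [h1, h2, h3, twoβ]
      ext1
      · simp only [Prod.fst_add]
        abel
      · simp only [Prod.snd_add]
        abel
    · change block (x.p * y.p) = block x.p * block y.p
      rw [map_mul]

theorem om_pr (a b : AA n) : om (pr a) (pr b) = a.1 ⬝ᵥ b.2 - a.2 ⬝ᵥ b.1 := by
  simp only [om, pr_inl, pr_inr, dotProduct, Finset.sum_sub_distrib]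

theorem qf_pr (a : AA n) : qf (pr a) = a.1 ⬝ᵥ a.2 := rfl

theorem exists_pr (m : Lat n) : ∃ a : AA n, m = pr a :=
  ⟨(m ∘ Sum.inl, m ∘ Sum.inr), by ext i; rcases i with i | i <;> rfl⟩

theorem it_inv (h : GL (Fin n) ℤ) : it h⁻¹ = (h : Matrix (Fin n) (Fin n) ℤ)ᵀ := by
  rw [it, inv_inv]

theorem qf_inv (p : Par n) (a : AA n) :
    qf (pr (p⁻¹ • a)) = (a.1 - p.S *ᵥ a.2) ⬝ᵥ a.2 := by
  rw [qf_pr, smul_fst, smul_snd, Par.inv_S, Par.inv_h, it_inv]
  have e1 : -(((p.h⁻¹ : GL (Fin n) ℤ) : Matrix (Fin n) (Fin n) ℤ) * p.S *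
      ((p.h⁻¹ : GL (Fin n) ℤ) : Matrix (Fin n) (Fin n) ℤ)ᵀ) *ᵥ
      ((p.h : Matrix (Fin n) (Fin n) ℤ)ᵀ *ᵥ a.2) =
      -(((p.h⁻¹ : GL (Fin n) ℤ) : Matrix (Fin n) (Fin n) ℤ) *ᵥ (p.S *ᵥ a.2)) := by
    rw [neg_mulVec, mulVec_mulVec, Matrix.mul_assoc, ← transpose_mul, Par.gl_mul_inv,
      transpose_one, Matrix.mul_one, mulVec_mulVec]
  rw [e1, ← sub_eq_add_neg, ← mulVec_sub, dotProduct_mulVec, vecMul_transpose, mulVec_mulVec,
    Par.gl_mul_inv, one_mulVec]

theorem f1_mem (x : GG n 1) : f1 n x ∈ Lam n := by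
  rw [mem_Lam]
  intro m
  obtain ⟨b, rfl⟩ := exists_pr m
  have e1 : ((((f1 n x).right)⁻¹ : Sp n) : Matrix (Fin n ⊕ Fin n) (Fin n ⊕ Fin n) ℤ) *ᵥ pr b =
      pr (x.p⁻¹ • b) := by
    change mt (block x.p)⁻¹ *ᵥ pr b = _
    rw [← map_inv, mt_block_mulVec]
  rw [e1, qf_inv]
  change Even (om (pr (af x)) (pr b) + qf (pr b) + _)
  rw [om_pr, qf_pr, af]
  have h := even_quad x.p.symm b.2
  obtain ⟨k, hk⟩ := h
  have e2 : (b.1 - x.p.S *ᵥ b.2) ⬝ᵥ b.2 = b.1 ⬝ᵥ b.2 - b.2 ⬝ᵥ (x.p.S *ᵥ b.2) := by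
    rw [sub_dotProduct, dotProduct_comm (x.p.S *ᵥ b.2)]
  rw [e2]
  simp only [Prod.fst_add, Prod.snd_add, Prod.smul_fst, Prod.smul_snd, add_zero, add_dotProduct,
    smul_dotProduct, smul_eq_mul]
  rw [dotProduct_comm x.p.S.diag b.2]
  refine ⟨x.a.1 ⬝ᵥ b.2 - x.a.2 ⬝ᵥ b.1 + b.1 ⬝ᵥ b.2 + k, ?_⟩
  linear_combination hk

/-- `G_1 → Λ` -/
noncomputable def f1' (n : ℕ) : GG n 1 →* Lam n := (f1 n).codRestrict (Lam n) f1_mem

/-- the Weyl element -/
def wJ (n : ℕ) : Sp n := ⟨J (Fin n) ℤ, SymplecticGroup.J_mem _ _⟩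

/-- the Weyl element of `ℤ^{2n} ⋊ Sp_{2n}(ℤ)` -/
def gJ (n : ℕ) : Gam n := ⟨1, wJ n⟩

theorem wJ_inv : ((wJ n)⁻¹ : Sp n) = ⟨-(J (Fin n) ℤ), SymplecticGroup.neg_mem (SymplecticGroup.J_mem _ _)⟩ := by
  rw [inv_eq_iff_mul_eq_one]
  ext1
  change J (Fin n) ℤ * (-(J (Fin n) ℤ)) = 1
  rw [Matrix.mul_neg, J_squared, neg_neg]

theorem gJ_mem : gJ n ∈ Lam n := by
  rw [mem_Lam]
  intro m
  obtain ⟨b, rfl⟩ := exists_pr m
  change Even (om (0 : Lat n) (pr b) + qf (pr b) + qf (mt (wJ n)⁻¹ *ᵥ (pr b)))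
  have e1 : mt (wJ n)⁻¹ *ᵥ (pr b) = pr (b.2, -b.1) := by
    rw [wJ_inv]
    change (-(J (Fin n) ℤ)) *ᵥ (pr b) = _
    rw [neg_mulVec, J, fromBlocks_mulVec]
    ext i
    rcases i with i | i
    · simp [pr, neg_mulVec]
    · simp [pr]
  rw [e1, om_zero_left, qf_pr, qf_pr]
  simp only [dotProduct_neg]
  rw [dotProduct_comm b.2]
  exact ⟨0, by ring⟩

/-- Bounded generation of `Sp_{2n}(ℤ)` by the parabolic and the Weyl element. -/
def BG (n : ℕ) : Prop := ∃ N : ℕ, ∀ g : Sp n, ∃ l : List (Sp n), l.length ≤ N ∧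
  (∀ x ∈ l, x ∈ Set.range (block (n := n)) ∨ x = wJ n ∨ x = (wJ n)⁻¹) ∧ l.prod = g

theorem UB.map {G G' : Type} [Group G] [Group G'] {Q X : Set G} (f : G →* G') (h : UB Q X) :
    UB (f '' Q) (f '' X) := by
  obtain ⟨C, hC, h⟩ := h
  refine ⟨C, hC, fun H _ _ _ π v c hc hQ x hx => ?_⟩
  obtain ⟨y, hy, rfl⟩ := hx
  exact h H (π.comp f) v c hc (fun s hs => hQ _ ⟨s, hs, rfl⟩) y hy

theorem UB.mono_left {G : Type} [Group G] {Q Q' X : Set G} (h : UB Q X) (hQ : Q ⊆ Q') :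
    UB Q' X := by
  obtain ⟨C, hC, h⟩ := h
  exact ⟨C, hC, fun H _ _ _ π v c hc hQ' x hx => h H π v c hc (fun s hs => hQ' s (hQ hs)) x hx⟩

/-- The abstract form: `f : G → G'`, `G` uniformly bounded, every element of `G'` is a product of
at most `N` elements of the range of `f` and of powers `±1` of `w`. -/
theorem PropT.of_gen {G G' : Type} [Group G] [Group G'] {Q : Set G} (hfin : Q.Finite)
    (hU : UB Q Set.univ) (f : G →* G') (w : G') (N : ℕ)
    (h : ∀ g : G', ∃ l : List G', l.length ≤ N ∧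
      (∀ x ∈ l, x ∈ Set.range f ∨ x = w ∨ x = w⁻¹) ∧ l.prod = g) : PropT G' := by
  have hfin' : (f '' Q ∪ {w}).Finite := (hfin.image f).union (Set.finite_singleton w)
  have h1 : UB (f '' Q ∪ {w}) (Set.range f) := by
    have := (hU.map f).mono_left (Q' := f '' Q ∪ {w}) Set.subset_union_left
    rwa [Set.image_univ] at this
  have h2 : UB (f '' Q ∪ {w}) {w} := UB.of_mem (Or.inr rfl)
  have h3 : UB ((hfin'.toFinset : Finset G') : Set G') Set.univ := by
    rw [Set.Finite.coe_toFinset]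
    refine ((h1.union (h2.union h2.inv1)).list N).mono ?_
    intro g _
    obtain ⟨l, hl, hx, hp⟩ := h g
    exact ⟨l, hl, fun x hxl => hx x hxl, hp⟩
  exact PropT.of_UB h3

theorem ub_GG (hn : 3 ≤ n) (ε : ℤ) : UB (Qs n ε) Set.univ := by
  refine ((((ub_W hn).mul (ub_Φ hn)).mul (ub_sy hn)).mul (ub_GL hn)).mono ?_
  intro g _
  rw [eq_prod g]
  exact Set.mul_mem_mul (Set.mul_mem_mul (Set.mul_mem_mul ⟨_, rfl⟩ ⟨_, rfl⟩) ⟨_, rfl⟩) ⟨_, rfl⟩

theorem lift_list {G G' S : Type} [Group G] [Group G'] [Group S] (f : G →* G') (w : G')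
    (p : G' →* S) (K : Set S) (hK : ∀ x ∈ K, ∃ y ∈ Set.range f, p y = x)
    (hker : ∀ x : G', p x = 1 → x ∈ Set.range f) {N : ℕ}
    (h : ∀ g : S, ∃ l : List S, l.length ≤ N ∧ (∀ x ∈ l, x ∈ K ∨ x = p w ∨ x = (p w)⁻¹) ∧
      l.prod = g) (g : G') : ∃ l : List G', l.length ≤ N + 1 ∧
      (∀ x ∈ l, x ∈ Set.range f ∨ x = w ∨ x = w⁻¹) ∧ l.prod = g := by
  have key : ∀ l : List S, (∀ x ∈ l, x ∈ K ∨ x = p w ∨ x = (p w)⁻¹) →
      ∃ l' : List G', l'.length = l.length ∧ (∀ x ∈ l', x ∈ Set.range f ∨ x = w ∨ x = w⁻¹) ∧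
        p l'.prod = l.prod := by
    intro l
    induction l with
    | nil => intro _; exact ⟨[], rfl, by simp, by simp⟩
    | cons a l ih =>
      intro hl
      obtain ⟨l', h1, h2, h3⟩ := ih fun x hx => hl x (by simp [hx])
      have ha := hl a (by simp)
      have hy : ∃ y : G', (y ∈ Set.range f ∨ y = w ∨ y = w⁻¹) ∧ p y = a := by
        rcases ha with ha | ha | ha
        · obtain ⟨y, hy, e⟩ := hK a ha
          exact ⟨y, Or.inl hy, e⟩
        · exact ⟨w, Or.inr (Or.inl rfl), ha.symm⟩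
        · exact ⟨w⁻¹, Or.inr (Or.inr rfl), by rw [map_inv, ha]⟩
      obtain ⟨y, hy, e⟩ := hy
      refine ⟨y :: l', by simp [h1], ?_, ?_⟩
      · intro x hx
        rcases List.mem_cons.mp hx with rfl | hx
        · exact hy
        · exact h2 x hx
      · rw [List.prod_cons, List.prod_cons, map_mul, e, h3]
  obtain ⟨l, hl, hx, hp⟩ := h (p g)
  obtain ⟨l', h1, h2, h3⟩ := key l hx
  refine ⟨(g * l'.prod⁻¹) :: l', by simp [h1, hl], ?_, by simp⟩
  intro x hx
  rcases List.mem_cons.mp hx with rfl | hx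
  · refine Or.inl (hker _ ?_)
    rw [map_mul, map_inv, h3, hp, mul_inv_cancel]
  · exact h2 x hx

/-- Property (T) of `ℤ^{2n} ⋊ Sp_{2n}(ℤ)`. -/
theorem propT_Gam (hn : 3 ≤ n) (hBG : BG n) : PropT (Gam n) := by
  obtain ⟨N, hN⟩ := hBG
  refine PropT.of_gen (Qs_finite n 0) (ub_GG hn 0) (f0 n) (gJ n) (N + 1) fun g => ?_
  refine lift_list (f0 n) (gJ n) SemidirectProduct.rightHom (Set.range (block (n := n))) ?_ ?_
    (N := N) ?_ g
  · rintro _ ⟨p, rfl⟩
    exact ⟨f0 n (Tw.s (bb n 0) p), ⟨_, rfl⟩, rfl⟩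
  · intro x hx
    obtain ⟨a, ha⟩ := exists_pr (Multiplicative.toAdd x.left)
    refine ⟨Tw.t (bb n 0) a, ?_⟩
    ext1
    · change Multiplicative.ofAdd (pr a) = x.left
      rw [← ha]
      rfl
    · change block (1 : Par n) = x.right
      rw [map_one]
      exact hx.symm
  · exact hN

/-- Property (T) of the twist. -/
theorem propT_Lam (hn : 3 ≤ n) (hBG : BG n) : PropT (Lam n) := by
  obtain ⟨N, hN⟩ := hBG
  refine PropT.of_gen (Qs_finite n 1) (ub_GG hn 1) (f1' n) (⟨gJ n, gJ_mem⟩ : Lam n) (N + 1)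
    fun g => ?_
  refine lift_list (f1' n) (⟨gJ n, gJ_mem⟩ : Lam n)
    (SemidirectProduct.rightHom.comp (Lam n).subtype) (Set.range (block (n := n))) ?_ ?_
    (N := N) ?_ g
  · rintro _ ⟨p, rfl⟩
    exact ⟨f1' n (Tw.s (bb n 1) p), ⟨_, rfl⟩, rfl⟩
  · intro x hx
    have hx1 : (x : Gam n).right = 1 := hx
    have hT := mem_Lam.mp x.2
    rw [hx1] at hT
    obtain ⟨b, hb⟩ := exists_pr (Multiplicative.toAdd (x : Gam n).left)
    rw [hb] at hT
    have hT2 : ∀ m : AA n, Even (b.1 ⬝ᵥ m.2 - b.2 ⬝ᵥ m.1) := by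
      intro m
      have h1 := hT (pr m)
      have e1 : (((1 : Sp n)⁻¹ : Sp n) : Matrix (Fin n ⊕ Fin n) (Fin n ⊕ Fin n) ℤ) *ᵥ pr m =
          pr m := by
        rw [inv_one]; exact mt_one _
      rw [e1, om_pr, add_assoc] at h1
      exact (Int.even_add.mp h1).mpr ⟨_, rfl⟩
    have hb1 : ∀ i, Even (b.1 i) := fun i => by
      have := hT2 (0, Pi.single i 1)
      simpa using this
    have hb2 : ∀ i, Even (b.2 i) := fun i => by
      have := hT2 (Pi.single i 1, 0)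
      simpa using this
    refine ⟨Tw.t (bb n 1) (fun i => b.1 i / 2, fun i => b.2 i / 2), ?_⟩
    apply Subtype.ext
    ext1
    · change Multiplicative.ofAdd (pr ((2 : ℤ) • ((fun i => b.1 i / 2, fun i => b.2 i / 2) : AA n) +
        ((0 : Matrix (Fin n) (Fin n) ℤ).diag, (0 : Fin n → ℤ)))) = (x : Gam n).left
      have e2 : (2 : ℤ) • ((fun i => b.1 i / 2, fun i => b.2 i / 2) : AA n) +
        ((0 : Matrix (Fin n) (Fin n) ℤ).diag, (0 : Fin n → ℤ)) = b := by
        ext i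
        · simp only [Prod.fst_add, Prod.smul_fst, Pi.add_apply, Pi.smul_apply, smul_eq_mul,
            diag_zero, Pi.zero_apply, add_zero]
          exact Int.mul_ediv_cancel' (hb1 i).two_dvd
        · simp only [Prod.snd_add, Prod.smul_snd, Pi.add_apply, Pi.smul_apply, smul_eq_mul,
            Pi.zero_apply, add_zero]
          exact Int.mul_ediv_cancel' (hb2 i).two_dvd
      rw [e2, ← hb]
      rfl
    · change block (1 : Par n) = (x : Gam n).right
      rw [map_one]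
      exact hx1.symm
  · exact hN

/-- The three kinds of blocks. -/
def Blk (x : Sp n) : Prop :=
  (∃ A B : Matrix (Fin n) (Fin n) ℤ, A.det = 1 ∧ A * Bᵀ = 1 ∧ mt x = fromBlocks A 0 0 B) ∨
  (∃ Y : Matrix (Fin n) (Fin n) ℤ, Yᵀ = Y ∧ mt x = fromBlocks 1 Y 0 1) ∨
  (∃ X : Matrix (Fin n) (Fin n) ℤ, Xᵀ = X ∧ mt x = fromBlocks 1 0 X 1)

theorem Blk.list {x : Sp n} (h : Blk x) : ∃ l : List (Sp n), l.length ≤ 3 ∧
    (∀ x ∈ l, x ∈ Set.range (block (n := n)) ∨ x = wJ n ∨ x = (wJ n)⁻¹) ∧ l.prod = x := by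
  rcases h with ⟨A, B, hA, hAB, hx⟩ | ⟨Y, hY, hx⟩ | ⟨X, hX, hx⟩
  · let u : GL (Fin n) ℤ := ⟨A, Bᵀ, hAB, mul_eq_one_comm.mp hAB⟩
    refine ⟨[x], by simp, fun y hy => ?_, by simp⟩
    rw [List.mem_singleton.mp hy]
    refine Or.inl ⟨⟨0, transpose_zero, u⟩, ?_⟩
    ext1
    change fromBlocks A ((0 : Matrix (Fin n) (Fin n) ℤ) * it u) 0 (it u) = mt x
    have e : it u = B := transpose_transpose B
    rw [hx, e, Matrix.zero_mul]
  · refine ⟨[x], by simp, fun y hy => ?_, by simp⟩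
    rw [List.mem_singleton.mp hy]
    refine Or.inl ⟨⟨Y, hY, 1⟩, ?_⟩
    ext1
    change fromBlocks 1 (Y * it 1) 0 (it 1) = mt x
    rw [hx, it_one, Matrix.mul_one]
  · have hX' : (-X)ᵀ = -X := by rw [transpose_neg, hX]
    refine ⟨[wJ n, block ⟨-X, hX', 1⟩, (wJ n)⁻¹], by simp, fun y hy => ?_, ?_⟩
    · simp only [List.mem_cons, List.not_mem_nil, or_false] at hy
      rcases hy with rfl | rfl | rfl
      · exact Or.inr (Or.inl rfl)
      · exact Or.inl ⟨_, rfl⟩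
      · exact Or.inr (Or.inr rfl)
    · simp only [List.prod_cons, List.prod_nil, mul_one]
      rw [wJ_inv]
      ext1
      change J (Fin n) ℤ * (fromBlocks 1 (-X * it 1) 0 (it 1) * (-(J (Fin n) ℤ))) = mt x
      rw [hx, it_one, Matrix.mul_one, J, Matrix.mul_neg, fromBlocks_multiply, Matrix.mul_neg,
        fromBlocks_multiply, fromBlocks_neg]
      congr 1 <;> simp

theorem BG.of_blk (h : ∃ N : ℕ, ∀ g : Sp n, ∃ l : List (Sp n), l.length ≤ N ∧ (∀ x ∈ l, Blk x) ∧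
    l.prod = g) : BG n := by
  obtain ⟨N, h⟩ := h
  refine ⟨N * 3, fun g => ?_⟩
  obtain ⟨l, hl, hb, hp⟩ := h g
  have key : ∀ l : List (Sp n), (∀ x ∈ l, Blk x) → ∃ l' : List (Sp n),
      l'.length ≤ l.length * 3 ∧
      (∀ x ∈ l', x ∈ Set.range (block (n := n)) ∨ x = wJ n ∨ x = (wJ n)⁻¹) ∧
      l'.prod = l.prod := by
    intro l
    induction l with
    | nil => intro _; exact ⟨[], by simp, by simp, rfl⟩
    | cons a l ih =>
      intro hl
      obtain ⟨l1, h1, h2, h3⟩ := ih fun x hx => hl x (by simp [hx])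
      obtain ⟨l2, h4, h5, h6⟩ := (hl a (by simp)).list
      refine ⟨l2 ++ l1, ?_, ?_, ?_⟩
      · rw [List.length_append, List.length_cons]; omega
      · intro x hx
        rcases List.mem_append.mp hx with hx | hx
        · exact h5 x hx
        · exact h2 x hx
      · rw [List.prod_append, List.prod_cons, h6, h3]
  obtain ⟨l', h1, h2, h3⟩ := key l hb
  exact ⟨l', h1.trans (by gcongr), h2, h3.trans hp⟩

end Vale.Agent.P092.R2.H32
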