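import Mathlib

/-!
P092: twisted extensions of a group `P` by a `P`-module `A`; the Siegel parabolic
`P = Sym_n(ℤ) ⋊ GL_n(ℤ)` of `Sp_{2n}(ℤ)`, its module `A = ℤⁿ × ℤⁿ`, and the cocycles `b_ε`
(multiples of the class of quadratic refinements).
-/

set_option linter.all false

open Matrix

namespace Vale.Agent.P092.R2.H32

/-! ### Twisted extensions -/

/-- A normalized 2-cocycle of `P` with values in the `P`-module `A`. -/
structure Coc (A P : Type) [AddCommGroup A] [Group P] [DistribMulAction P A] where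
  b : P → P → A
  coc : ∀ p q r, b p q + b (p * q) r = p • b q r + b p (q * r)
  one_left : ∀ p, b 1 p = 0
  one_right : ∀ p, b p 1 = 0

section Ext

variable {A P : Type} [AddCommGroup A] [Group P] [DistribMulAction P A]

/-- The extension of `P` by `A` with cocycle `c`: the set `A × P` with the product
`(a, p) (a', p') = (a + p a' + b(p, p'), p p')`. -/
@[ext]
structure Tw (c : Coc A P) where
  a : A
  p : P

namespace Tw

variable {c : Coc A P}

instance : Mul (Tw c) := ⟨fun x y => ⟨x.a + x.p • y.a + c.b x.p y.p, x.p * y.p⟩⟩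
instance : One (Tw c) := ⟨⟨0, 1⟩⟩
instance : Inv (Tw c) := ⟨fun x => ⟨-(x.p⁻¹ • (x.a + c.b x.p x.p⁻¹)), x.p⁻¹⟩⟩

@[simp] theorem mul_a (x y : Tw c) : (x * y).a = x.a + x.p • y.a + c.b x.p y.p := rfl
@[simp] theorem mul_p (x y : Tw c) : (x * y).p = x.p * y.p := rfl
@[simp] theorem one_a : (1 : Tw c).a = 0 := rfl
@[simp] theorem one_p : (1 : Tw c).p = 1 := rfl
@[simp] theorem inv_a (x : Tw c) : x⁻¹.a = -(x.p⁻¹ • (x.a + c.b x.p x.p⁻¹)) := rfl
@[simp] theorem inv_p (x : Tw c) : x⁻¹.p = x.p⁻¹ := rfl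

theorem coc_inv (c : Coc A P) (p : P) : p • c.b p⁻¹ p = c.b p p⁻¹ := by
  have h := c.coc p p⁻¹ p
  rw [mul_inv_cancel, inv_mul_cancel, c.one_left, c.one_right, add_zero, add_zero] at h
  exact h.symm

instance : Group (Tw c) where
  mul_assoc x y z := by
    ext
    · simp only [mul_a, mul_p, smul_add, mul_smul]
      have h := c.coc x.p y.p z.p
      calc x.a + x.p • y.a + c.b x.p y.p + x.p • y.p • z.a + c.b (x.p * y.p) z.p
          = x.a + x.p • y.a + x.p • y.p • z.a + (c.b x.p y.p + c.b (x.p * y.p) z.p) := by abel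
        _ = x.a + x.p • y.a + x.p • y.p • z.a + (x.p • c.b y.p z.p + c.b x.p (y.p * z.p)) := by
          rw [h]
        _ = _ := by abel
    · exact mul_assoc _ _ _
  one_mul x := by
    ext
    · simp [c.one_left]
    · simp
  mul_one x := by
    ext
    · simp [c.one_right]
    · simp
  inv_mul_cancel x := by
    ext
    · simp only [mul_a, inv_a, inv_p, one_a, smul_add]
      have h := coc_inv c x.p⁻¹
      rw [inv_inv] at h
      rw [← h]
      abel
    · simp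

/-- the inclusion of `A` -/
def t (c : Coc A P) (a : A) : Tw c := ⟨a, 1⟩

@[simp] theorem t_a (a : A) : (t c a).a = a := rfl
@[simp] theorem t_p (a : A) : (t c a).p = 1 := rfl

theorem t_add (a a' : A) : t c (a + a') = t c a * t c a' := by
  ext
  · simp [c.one_left]
  · simp

theorem t_zero : t c 0 = 1 := rfl

theorem t_neg (a : A) : t c (-a) = (t c a)⁻¹ := by
  rw [eq_inv_iff_mul_eq_one, ← t_add, neg_add_cancel, t_zero]

theorem t_zsmul (k : ℤ) (a : A) : t c (k • a) = t c a ^ k := by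
  let f : A →+ Additive (Tw c) :=
    { toFun := fun a => Additive.ofMul (t c a), map_zero' := rfl, map_add' := fun a a' => by
        rw [t_add]; rfl }
  exact map_zsmul f k a

theorem t_conj (x : Tw c) (a : A) : x * t c a * x⁻¹ = t c (x.p • a) := by
  rw [mul_inv_eq_iff_eq_mul]
  ext
  · simp [c.one_left, c.one_right, add_comm]
  · simp

theorem t_comm (a a' : A) : t c a * t c a' = t c a' * t c a := by
  rw [← t_add, ← t_add, add_comm]

theorem t_inj {a a' : A} (h : t c a = t c a') : a = a' := congrArg Tw.a h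

/-- the section `p ↦ (0, p)` -/
def s (c : Coc A P) (p : P) : Tw c := ⟨0, p⟩

@[simp] theorem s_a (p : P) : (s c p).a = 0 := rfl
@[simp] theorem s_p (p : P) : (s c p).p = p := rfl

theorem s_mul (p q : P) : s c p * s c q = t c (c.b p q) * s c (p * q) := by
  ext <;> simp [c.one_left]

theorem s_one : s c 1 = 1 := rfl

theorem eq_t_mul_s (x : Tw c) : x = t c x.a * s c x.p := by
  ext <;> simp [c.one_left]

end Tw

end Ext

/-! ### The parabolic -/

variable {n : ℕ}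

/-- `Sym_n(ℤ) ⋊ GL_n(ℤ)`, the Siegel parabolic of `Sp_{2n}(ℤ)`. -/
@[ext]
structure Par (n : ℕ) where
  S : Matrix (Fin n) (Fin n) ℤ
  symm : Sᵀ = S
  h : GL (Fin n) ℤ

namespace Par

theorem symm_conj {S : Matrix (Fin n) (Fin n) ℤ} (hS : Sᵀ = S) (h : Matrix (Fin n) (Fin n) ℤ) :
    (h * S * hᵀ)ᵀ = h * S * hᵀ := by
  rw [transpose_mul, transpose_mul, transpose_transpose, hS, Matrix.mul_assoc]

instance : Mul (Par n) := ⟨fun x y =>
  { S := x.S + (x.h : Matrix (Fin n) (Fin n) ℤ) * y.S * (x.h : Matrix (Fin n) (Fin n) ℤ)ᵀ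
    symm := by rw [transpose_add, x.symm, symm_conj y.symm]
    h := x.h * y.h }⟩

instance : One (Par n) := ⟨{ S := 0, symm := transpose_zero, h := 1 }⟩

instance : Inv (Par n) := ⟨fun x =>
  { S := -(((x.h⁻¹ : GL (Fin n) ℤ) : Matrix (Fin n) (Fin n) ℤ) * x.S *
      ((x.h⁻¹ : GL (Fin n) ℤ) : Matrix (Fin n) (Fin n) ℤ)ᵀ)
    symm := by rw [transpose_neg, symm_conj x.symm]
    h := x.h⁻¹ }⟩

@[simp] theorem mul_S (x y : Par n) : (x * y).S =
    x.S + (x.h : Matrix (Fin n) (Fin n) ℤ) * y.S * (x.h : Matrix (Fin n) (Fin n) ℤ)ᵀ := rfl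
@[simp] theorem mul_h (x y : Par n) : (x * y).h = x.h * y.h := rfl
@[simp] theorem one_S : (1 : Par n).S = 0 := rfl
@[simp] theorem one_h : (1 : Par n).h = 1 := rfl
@[simp] theorem inv_S (x : Par n) : x⁻¹.S =
  -(((x.h⁻¹ : GL (Fin n) ℤ) : Matrix (Fin n) (Fin n) ℤ) * x.S *
      ((x.h⁻¹ : GL (Fin n) ℤ) : Matrix (Fin n) (Fin n) ℤ)ᵀ) := rfl
@[simp] theorem inv_h (x : Par n) : x⁻¹.h = x.h⁻¹ := rfl

theorem gl_inv_mul (h : GL (Fin n) ℤ) :
    ((h⁻¹ : GL (Fin n) ℤ) : Matrix (Fin n) (Fin n) ℤ) * (h : Matrix (Fin n) (Fin n) ℤ) = 1 := by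
  rw [← Units.val_mul, inv_mul_cancel, Units.val_one]

theorem gl_mul_inv (h : GL (Fin n) ℤ) :
    (h : Matrix (Fin n) (Fin n) ℤ) * ((h⁻¹ : GL (Fin n) ℤ) : Matrix (Fin n) (Fin n) ℤ) = 1 := by
  rw [← Units.val_mul, mul_inv_cancel, Units.val_one]

instance : Group (Par n) where
  mul_assoc x y z := by
    ext1
    · simp only [mul_S, mul_h, Units.val_mul, transpose_mul, Matrix.mul_add, Matrix.add_mul,
        Matrix.mul_assoc, add_assoc]
    · exact mul_assoc _ _ _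
  one_mul x := by
    ext1
    · simp only [mul_S, one_S, one_h, Units.val_one, transpose_one, Matrix.one_mul,
        Matrix.mul_one, zero_add]
    · exact one_mul _
  mul_one x := by
    ext1
    · simp only [mul_S, one_S, Matrix.mul_zero, Matrix.zero_mul, add_zero]
    · exact mul_one _
  inv_mul_cancel x := by
    ext1
    · simp only [mul_S, inv_S, inv_h, one_S, neg_add_cancel]
    · exact inv_mul_cancel _

end Par

/-- The module `ℤⁿ × ℤⁿ`. -/
abbrev AA (n : ℕ) : Type := (Fin n → ℤ) × (Fin n → ℤ)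

/-- `h^{-T}` -/
noncomputable def it (h : GL (Fin n) ℤ) : Matrix (Fin n) (Fin n) ℤ :=
  ((h⁻¹ : GL (Fin n) ℤ) : Matrix (Fin n) (Fin n) ℤ)ᵀ

theorem it_one : it (1 : GL (Fin n) ℤ) = 1 := by
  rw [it, inv_one, Units.val_one, transpose_one]

theorem it_mul (g h : GL (Fin n) ℤ) : it (g * h) = it g * it h := by
  rw [it, _root_.mul_inv_rev, Units.val_mul, transpose_mul, it, it]

theorem tr_mul_it (h : GL (Fin n) ℤ) : (h : Matrix (Fin n) (Fin n) ℤ)ᵀ * it h = 1 := by
  rw [it, ← transpose_mul, Par.gl_inv_mul, transpose_one]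

/-- the action of the parabolic on `ℤⁿ × ℤⁿ`:
`(S, h) (w, φ) = (h w + S h^{-T} φ, h^{-T} φ)` -/
noncomputable instance : SMul (Par n) (AA n) := ⟨fun g x =>
  ((g.h : Matrix (Fin n) (Fin n) ℤ) *ᵥ x.1 + g.S *ᵥ (it g.h *ᵥ x.2), it g.h *ᵥ x.2)⟩

theorem smul_fst (g : Par n) (x : AA n) :
    (g • x).1 = (g.h : Matrix (Fin n) (Fin n) ℤ) *ᵥ x.1 + g.S *ᵥ (it g.h *ᵥ x.2) := rfl
theorem smul_snd (g : Par n) (x : AA n) : (g • x).2 = it g.h *ᵥ x.2 := rfl

noncomputable instance : DistribMulAction (Par n) (AA n) where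
  one_smul x := by
    ext1
    · rw [smul_fst, Par.one_S, Par.one_h, Units.val_one, one_mulVec, zero_mulVec, add_zero]
    · rw [smul_snd, Par.one_h, it_one, one_mulVec]
  mul_smul g k x := by
    ext1
    · rw [smul_fst, smul_fst, smul_fst, smul_snd, Par.mul_S, Par.mul_h, Units.val_mul, it_mul,
        mulVec_add, add_mulVec]
      simp only [mulVec_mulVec]
      have e : (g.h : Matrix (Fin n) (Fin n) ℤ) * k.S * (g.h : Matrix (Fin n) (Fin n) ℤ)ᵀ *
          (it g.h * it k.h) = (g.h : Matrix (Fin n) (Fin n) ℤ) * (k.S * it k.h) := by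
        calc _ = (g.h : Matrix (Fin n) (Fin n) ℤ) * k.S *
              ((g.h : Matrix (Fin n) (Fin n) ℤ)ᵀ * it g.h) * it k.h := by
              simp only [Matrix.mul_assoc]
          _ = _ := by rw [tr_mul_it, Matrix.mul_one, Matrix.mul_assoc]
      rw [e]
      abel
    · rw [smul_snd, smul_snd, smul_snd, Par.mul_h, it_mul, mulVec_mulVec]
  smul_zero g := by
    ext1
    · rw [smul_fst]
      simp only [Prod.fst_zero, Prod.snd_zero, mulVec_zero, add_zero]
    · rw [smul_snd]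
      simp only [Prod.snd_zero, mulVec_zero]
  smul_add g x y := by
    ext1
    · rw [Prod.fst_add, smul_fst, smul_fst, smul_fst, Prod.fst_add, Prod.snd_add, mulVec_add,
        mulVec_add, mulVec_add]
      abel
    · rw [Prod.snd_add, smul_snd, smul_snd, smul_snd, Prod.snd_add, mulVec_add]

/-! ### The cocycle -/

/-- `h diag(S) - diag(h S hᵀ)` -/
def twoβ (h S : Matrix (Fin n) (Fin n) ℤ) : Fin n → ℤ := h *ᵥ S.diag - (h * S * hᵀ).diag

theorem even_quad {S : Matrix (Fin n) (Fin n) ℤ} (hS : Sᵀ = S) (v : Fin n → ℤ) :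
    (2 : ℤ) ∣ v ⬝ᵥ S.diag - v ⬝ᵥ (S *ᵥ v) := by
  have hsym : ∀ u v : Fin n → ℤ, u ⬝ᵥ (S *ᵥ v) = v ⬝ᵥ (S *ᵥ u) := fun u v => by
    rw [dotProduct_mulVec, ← mulVec_transpose, hS, dotProduct_comm]
  let q : (Fin n → ℤ) →+ ZMod 2 :=
    { toFun := fun v => ((v ⬝ᵥ S.diag - v ⬝ᵥ (S *ᵥ v) : ℤ) : ZMod 2)
      map_zero' := by simp
      map_add' := fun u v => by
        have e : (u + v) ⬝ᵥ S.diag - (u + v) ⬝ᵥ (S *ᵥ (u + v)) =
            (u ⬝ᵥ S.diag - u ⬝ᵥ (S *ᵥ u)) + (v ⬝ᵥ S.diag - v ⬝ᵥ (S *ᵥ v)) -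
              2 * (u ⬝ᵥ (S *ᵥ v)) := by
          rw [mulVec_add, add_dotProduct, add_dotProduct, dotProduct_add, dotProduct_add,
            hsym v u]
          ring
        rw [e]
        push_cast
        have h2 : (2 : ZMod 2) = 0 := by decide
        rw [h2, zero_mul, sub_zero] }
  have h0 : q = 0 := by
    ext i
    change ((Pi.single i 1 ⬝ᵥ S.diag - Pi.single i 1 ⬝ᵥ (S *ᵥ Pi.single i 1) : ℤ) : ZMod 2) = 0
    simp
  have h1 : q v = 0 := by rw [h0]; rfl
  exact (ZMod.intCast_zmod_eq_zero_iff_dvd _ 2).mp h1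

theorem even_twoβ (h : Matrix (Fin n) (Fin n) ℤ) {S : Matrix (Fin n) (Fin n) ℤ} (hS : Sᵀ = S)
    (i : Fin n) : (2 : ℤ) ∣ twoβ h S i := by
  have h1 := even_quad hS (h i)
  have e : (h * S * hᵀ) i i = h i ⬝ᵥ (S *ᵥ h i) := by
    rw [Matrix.mul_assoc, Matrix.mul_apply]
    rfl
  have e2 : twoβ h S i = h i ⬝ᵥ S.diag - h i ⬝ᵥ (S *ᵥ h i) := by
    rw [← e]; rfl
  rw [e2]
  exact h1

/-- `β(h, S) = (h diag(S) - diag(h S hᵀ)) / 2` -/
def β (h S : Matrix (Fin n) (Fin n) ℤ) : Fin n → ℤ := fun i => twoβ h S i / 2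

theorem two_β (h : Matrix (Fin n) (Fin n) ℤ) {S : Matrix (Fin n) (Fin n) ℤ} (hS : Sᵀ = S) :
    (2 : ℤ) • β h S = twoβ h S := by
  ext i
  rw [Pi.smul_apply, smul_eq_mul, β, Int.mul_ediv_cancel' (even_twoβ h hS i)]

theorem two_smul_inj {u v : Fin n → ℤ} (h : (2 : ℤ) • u = (2 : ℤ) • v) : u = v := by
  ext i
  have := congrFun h i
  simp only [Pi.smul_apply, smul_eq_mul] at this
  omega

theorem β_coc (h h' : Matrix (Fin n) (Fin n) ℤ) {S S' : Matrix (Fin n) (Fin n) ℤ}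
    (hS : Sᵀ = S) (hS' : S'ᵀ = S') :
    β h S + β (h * h') S' = h *ᵥ β h' S' + β h (S + h' * S' * h'ᵀ) := by
  apply two_smul_inj
  have h3 : (S + h' * S' * h'ᵀ)ᵀ = S + h' * S' * h'ᵀ := by
    rw [transpose_add, hS, Par.symm_conj hS']
  rw [smul_add, smul_add, ← mulVec_smul, two_β h hS, two_β _ hS', two_β _ hS', two_β h h3]
  simp only [twoβ, mulVec_sub, diag_add, mulVec_add, Matrix.mul_add, Matrix.add_mul, mulVec_mulVec,
    transpose_mul, Matrix.mul_assoc]
  abel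

theorem β_one_left {S : Matrix (Fin n) (Fin n) ℤ} (hS : Sᵀ = S) : β 1 S = 0 := by
  apply two_smul_inj
  rw [two_β _ hS, smul_zero, twoβ, one_mulVec, Matrix.one_mul, transpose_one, Matrix.mul_one,
    sub_self]

theorem β_zero_right (h : Matrix (Fin n) (Fin n) ℤ) : β h 0 = 0 := by
  apply two_smul_inj
  rw [two_β _ transpose_zero, smul_zero, twoβ, Matrix.mul_zero, Matrix.zero_mul, diag_zero]
  simp

/-- The cocycle `b_ε((S, h), (S', h')) = (ε β(h, S'), 0)`. -/
noncomputable def bb (n : ℕ) (ε : ℤ) : Coc (AA n) (Par n) where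
  b g g' := (ε • β (g.h : Matrix (Fin n) (Fin n) ℤ) g'.S, 0)
  coc p q r := by
    ext1
    · simp only [Prod.fst_add, smul_fst, mulVec_zero, add_zero, Par.mul_h, Units.val_mul,
        Par.mul_S, mulVec_smul, ← smul_add]
      rw [β_coc _ _ q.symm r.symm]
    · simp only [Prod.snd_add, smul_snd, mulVec_zero, add_zero]
  one_left p := by
    rw [Par.one_h, Units.val_one, β_one_left p.symm, smul_zero]
    rfl
  one_right p := by
    rw [Par.one_S, β_zero_right, smul_zero]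
    rfl

/-- The group `G_ε`: the extension of `Sym_n(ℤ) ⋊ GL_n(ℤ)` by `ℤⁿ × ℤⁿ` with cocycle `b_ε`. -/
abbrev GG (n : ℕ) (ε : ℤ) : Type := Tw (bb n ε)

theorem bb_b (ε : ℤ) (g g' : Par n) :
    (bb n ε).b g g' = (ε • β (g.h : Matrix (Fin n) (Fin n) ℤ) g'.S, 0) := rfl

end Vale.Agent.P092.R2.H32
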