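import Vale.Agent.P092.H350.Carter

/-!
Long root elements of `Sp_4(ℤ)` are products of a bounded number of blocks.
-/

set_option linter.all false

open Matrix

namespace Vale.Agent.P092.R2.H32

section Pn

variable {ι : Type} [Fintype ι] [DecidableEq ι]

/-- The three kinds of blocks (as matrices). -/
def BlkM (M : Matrix (ι ⊕ ι) (ι ⊕ ι) ℤ) : Prop :=
  (∃ A B : Matrix ι ι ℤ, A.det = 1 ∧ A * Bᵀ = 1 ∧ M = fromBlocks A 0 0 B) ∨
  (∃ Y : Matrix ι ι ℤ, Yᵀ = Y ∧ M = fromBlocks 1 Y 0 1) ∨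
  (∃ X : Matrix ι ι ℤ, Xᵀ = X ∧ M = fromBlocks 1 0 X 1)

/-- `M` is a product of at most `N` blocks. -/
def Pn (N : ℕ) (M : Matrix (ι ⊕ ι) (ι ⊕ ι) ℤ) : Prop :=
  ∃ l : List (Matrix (ι ⊕ ι) (ι ⊕ ι) ℤ), l.length ≤ N ∧ (∀ x ∈ l, BlkM x) ∧ l.prod = M

theorem Pn.one (N : ℕ) : Pn N (1 : Matrix (ι ⊕ ι) (ι ⊕ ι) ℤ) := ⟨[], by simp, by simp, rfl⟩

theorem Pn.mono {N N' : ℕ} {M : Matrix (ι ⊕ ι) (ι ⊕ ι) ℤ} (h : Pn N M) (hN : N ≤ N') :
    Pn N' M := by
  obtain ⟨l, h1, h2, h3⟩ := h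
  exact ⟨l, h1.trans hN, h2, h3⟩

theorem Pn.mul {N N' : ℕ} {M M' : Matrix (ι ⊕ ι) (ι ⊕ ι) ℤ} (h : Pn N M) (h' : Pn N' M') :
    Pn (N + N') (M * M') := by
  obtain ⟨l, h1, h2, h3⟩ := h
  obtain ⟨l', h1', h2', h3'⟩ := h'
  refine ⟨l ++ l', by rw [List.length_append]; omega, fun x hx => ?_, by
    rw [List.prod_append, h3, h3']⟩
  rcases List.mem_append.mp hx with hx | hx
  · exact h2 x hx
  · exact h2' x hx

theorem BlkM.pn {M : Matrix (ι ⊕ ι) (ι ⊕ ι) ℤ} (h : BlkM M) : Pn 1 M :=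
  ⟨[M], by simp, fun x hx => by rw [List.mem_singleton.mp hx]; exact h, by simp⟩

theorem pn_U {Y : Matrix ι ι ℤ} (hY : Yᵀ = Y) : Pn 1 (fromBlocks 1 Y 0 1) :=
  BlkM.pn (Or.inr (Or.inl ⟨Y, hY, rfl⟩))

theorem pn_V {X : Matrix ι ι ℤ} (hX : Xᵀ = X) : Pn 1 (fromBlocks 1 0 X 1) :=
  BlkM.pn (Or.inr (Or.inr ⟨X, hX, rfl⟩))

theorem pn_L {A B : Matrix ι ι ℤ} (hA : A.det = 1) (hAB : A * Bᵀ = 1) :
    Pn 1 (fromBlocks A 0 0 B) :=
  BlkM.pn (Or.inl ⟨A, B, hA, hAB, rfl⟩)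

/-- a block has an inverse which is a block -/
theorem BlkM.inv {M : Matrix (ι ⊕ ι) (ι ⊕ ι) ℤ} (h : BlkM M) :
    ∃ M' : Matrix (ι ⊕ ι) (ι ⊕ ι) ℤ, BlkM M' ∧ M' * M = 1 ∧ M * M' = 1 := by
  rcases h with ⟨A, B, hA, hAB, rfl⟩ | ⟨Y, hY, rfl⟩ | ⟨X, hX, rfl⟩
  · have hAB' : Bᵀ * A = 1 := mul_eq_one_comm.mp hAB
    have h1 : B * Aᵀ = 1 := by
      have := congrArg transpose hAB
      rwa [transpose_mul, transpose_transpose, transpose_one] at this
    have h2 : Aᵀ * B = 1 := mul_eq_one_comm.mp h1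
    refine ⟨fromBlocks Bᵀ 0 0 Aᵀ, Or.inl ⟨Bᵀ, Aᵀ, ?_, ?_, rfl⟩, ?_, ?_⟩
    · have := congrArg det hAB
      rw [det_mul, hA, one_mul, det_one] at this
      exact this
    · rw [transpose_transpose]; exact hAB'
    · rw [fromBlocks_multiply, hAB', h2]
      simp [fromBlocks_one]
    · rw [fromBlocks_multiply, hAB, h1]
      simp [fromBlocks_one]
  · refine ⟨fromBlocks 1 (-Y) 0 1, Or.inr (Or.inl ⟨-Y, by rw [transpose_neg, hY], rfl⟩), ?_, ?_⟩
    · rw [fromBlocks_multiply]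
      simp [fromBlocks_one]
    · rw [fromBlocks_multiply]
      simp [fromBlocks_one]
  · refine ⟨fromBlocks 1 0 (-X) 1, Or.inr (Or.inr ⟨-X, by rw [transpose_neg, hX], rfl⟩), ?_, ?_⟩
    · rw [fromBlocks_multiply]
      simp [fromBlocks_one]
    · rw [fromBlocks_multiply]
      simp [fromBlocks_one]

theorem Pn.inv {N : ℕ} {M : Matrix (ι ⊕ ι) (ι ⊕ ι) ℤ} (h : Pn N M) :
    ∃ M' : Matrix (ι ⊕ ι) (ι ⊕ ι) ℤ, Pn N M' ∧ M' * M = 1 ∧ M * M' = 1 := by
  obtain ⟨l, h1, h2, rfl⟩ := h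
  induction l generalizing N with
  | nil => exact ⟨1, Pn.one N, by simp, by simp⟩
  | cons a l ih =>
    obtain ⟨a', ha', e1, e2⟩ := (h2 a (by simp)).inv
    obtain ⟨M', hM', e3, e4⟩ := ih (N := N - 1) (by rw [List.length_cons] at h1; omega)
      (fun x hx => h2 x (by simp [hx]))
    refine ⟨M' * a', (hM'.mul ha'.pn).mono (by rw [List.length_cons] at h1; omega), ?_, ?_⟩
    · rw [List.prod_cons]
      calc M' * a' * (a * l.prod) = M' * (a' * a) * l.prod := by simp only [mul_assoc]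
        _ = 1 := by rw [e1, mul_one, e3]
    · rw [List.prod_cons]
      calc a * l.prod * (M' * a') = a * (l.prod * M') * a' := by simp only [mul_assoc]
        _ = 1 := by rw [e4, mul_one, e2]

theorem Pn.of_mul_left {N N' : ℕ} {e M : Matrix (ι ⊕ ι) (ι ⊕ ι) ℤ} (he : Pn N e)
    (h : Pn N' (e * M)) : Pn (N + N') M := by
  obtain ⟨e', h1, h2, -⟩ := he.inv
  have := h1.mul h
  rwa [← mul_assoc, h2, one_mul] at this

theorem Pn.of_mul_right {N N' : ℕ} {e M : Matrix (ι ⊕ ι) (ι ⊕ ι) ℤ} (he : Pn N e)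
    (h : Pn N' (M * e)) : Pn (N' + N) M := by
  obtain ⟨e', h1, -, h2⟩ := he.inv
  have := h.mul h1
  rwa [mul_assoc, h2, mul_one] at this

end Pn

/-- the long root element in the coordinates `x₁, y₁` of `Sp_4` -/
def lr (a b c d : ℤ) : Matrix (Fin 2 ⊕ Fin 2) (Fin 2 ⊕ Fin 2) ℤ :=
  fromBlocks !![a, 0; 0, 1] !![b, 0; 0, 0] !![c, 0; 0, 0] !![d, 0; 0, 1]

theorem lr_core {a b g d : ℤ} (h : a * d - b * (g * g) = 1) : Pn 9 (lr a b (g * g) d) := by
  have h0 : a * d - b * g ^ 2 - 1 = 0 := by linear_combination h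
  obtain ⟨s, hs⟩ : ∃ s : ℤ, s = -(g * d) := ⟨_, rfl⟩
  obtain ⟨t, ht⟩ : ∃ t : ℤ, t = g * b := ⟨_, rfl⟩
  obtain ⟨p, hp⟩ : ∃ p : ℤ, p = d * (2 - a * d) := ⟨_, rfl⟩
  obtain ⟨u, hu⟩ : ∃ u : ℤ, u = 1 - p := ⟨_, rfl⟩
  obtain ⟨v, hv⟩ : ∃ v : ℤ, v = 1 - a := ⟨_, rfl⟩
  have hL : Pn 1 (fromBlocks !![a, b * g; g, d] 0 0 !![d, -g; -(b * g), a] :
      Matrix (Fin 2 ⊕ Fin 2) (Fin 2 ⊕ Fin 2) ℤ) := by
    refine pn_L ?_ ?_
    · rw [det_fin_two_of]; linear_combination h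
    · ext i j
      fin_cases i <;> fin_cases j <;> simp [Matrix.mul_apply, Fin.sum_univ_two]
      · linear_combination h
      · ring
      · ring
      · linear_combination h
  have hV : Pn 1 (fromBlocks 1 0 !![0, g; g, -a] 1 :
      Matrix (Fin 2 ⊕ Fin 2) (Fin 2 ⊕ Fin 2) ℤ) := pn_V (by
    ext i j; fin_cases i <;> fin_cases j <;> simp)
  have hE1 : Pn 1 (fromBlocks !![1, 0; s, 1] 0 0 !![1, -s; 0, 1] :
      Matrix (Fin 2 ⊕ Fin 2) (Fin 2 ⊕ Fin 2) ℤ) := by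
    refine pn_L ?_ ?_
    · rw [det_fin_two_of]; ring
    · ext i j
      fin_cases i <;> fin_cases j <;> simp [Matrix.mul_apply, Fin.sum_univ_two]
  have hE2 : Pn 1 (fromBlocks 1 !![0, t; t, 0] 0 1 :
      Matrix (Fin 2 ⊕ Fin 2) (Fin 2 ⊕ Fin 2) ℤ) := pn_U (by
    ext i j; fin_cases i <;> fin_cases j <;> simp)
  have hUY : Pn 1 (fromBlocks 1 !![p * b * b * g * g - b * d, p * b * g; p * b * g, 0] 0 1 :
      Matrix (Fin 2 ⊕ Fin 2) (Fin 2 ⊕ Fin 2) ℤ) := pn_U (by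
    ext i j; fin_cases i <;> fin_cases j <;> simp)
  have hLZ : Pn 1 (fromBlocks !![1, b * g; 0, 1] 0 0 !![1, 0; -(b * g), 1] :
      Matrix (Fin 2 ⊕ Fin 2) (Fin 2 ⊕ Fin 2) ℤ) := by
    refine pn_L ?_ ?_
    · rw [det_fin_two_of]; ring
    · ext i j
      fin_cases i <;> fin_cases j <;> simp [Matrix.mul_apply, Fin.sum_univ_two]
  have hS1 : Pn 1 (fromBlocks 1 !![0, 0; 0, u] 0 1 :
      Matrix (Fin 2 ⊕ Fin 2) (Fin 2 ⊕ Fin 2) ℤ) := pn_U (by
    ext i j; fin_cases i <;> fin_cases j <;> simp)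
  have hS2 : Pn 1 (fromBlocks 1 0 !![0, 0; 0, -1] 1 :
      Matrix (Fin 2 ⊕ Fin 2) (Fin 2 ⊕ Fin 2) ℤ) := pn_V (by
    ext i j; fin_cases i <;> fin_cases j <;> simp)
  have hS3 : Pn 1 (fromBlocks 1 !![0, 0; 0, v] 0 1 :
      Matrix (Fin 2 ⊕ Fin 2) (Fin 2 ⊕ Fin 2) ℤ) := pn_U (by
    ext i j; fin_cases i <;> fin_cases j <;> simp)
  have hM := hE2.mul (hE1.mul (hV.mul hL))
  have hK := hUY.mul (hLZ.mul (hS1.mul (hS2.mul hS3)))
  have one2 : (1 : Matrix (Fin 2) (Fin 2) ℤ) = !![1, 0; 0, 1] := Matrix.one_fin_two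
  have zero2 : (0 : Matrix (Fin 2) (Fin 2) ℤ) = !![0, 0; 0, 0] := by
    ext i j; fin_cases i <;> fin_cases j <;> rfl
  refine (Pn.of_mul_right (N' := 4) hK ?_).mono (by norm_num)
  refine Eq.mpr ?_ hM
  congr 1
  rw [lr, one2, zero2]
  simp only [fromBlocks_multiply, Matrix.mul_fin_two, Matrix.smul_of, Matrix.of_add_of]
  simp only [Matrix.cons_add_cons, Matrix.empty_add_empty]
  clear hM hK hL hV hE1 hE2 hUY hLZ hS1 hS2 hS3 one2 zero2
  subst hu hv hp hs ht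
  congr 1
  · ext i j
    fin_cases i <;> fin_cases j <;> simp
    · exact Or.inr (by ring)
    · linear_combination (b * g) * h
    · linear_combination g * h
    · linear_combination (b * g ^ 2 * d - d) * h
  · ext i j
    fin_cases i <;> fin_cases j <;> simp
    · linear_combination (-b) * h
    · ring
    · linear_combination (-b * g * d) * h
    · linear_combination (a * d - 1) * h
  · ext i j
    fin_cases i <;> fin_cases j <;> simp
    · exact Or.inr (by ring)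
    · linear_combination (g * d) * h
    · ring
    · linear_combination h
  · ext i j
    fin_cases i <;> fin_cases j <;> simp
    · ring
    · linear_combination (-g) * h

/-- first rows / columns reachable by boundedly many blocks -/
def LQ (N : ℕ) (a c : ℤ) : Prop := ∀ b d : ℤ, a * d - b * c = 1 → Pn N (lr a b c d)

theorem LQ.mono {N N' : ℕ} {a c : ℤ} (h : LQ N a c) (hN : N ≤ N') : LQ N' a c :=
  fun b d hd => (h b d hd).mono hN

theorem lr_U (k a b c d : ℤ) :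
    (fromBlocks 1 !![k, 0; 0, 0] 0 1 : Matrix (Fin 2 ⊕ Fin 2) (Fin 2 ⊕ Fin 2) ℤ) * lr a b c d =
      lr (a + k * c) (b + k * d) c d := by
  rw [lr, fromBlocks_multiply, lr]
  congr 1 <;> (ext i j; fin_cases i <;> fin_cases j <;> simp)

theorem lr_V (k a b c d : ℤ) :
    (fromBlocks 1 0 !![k, 0; 0, 0] 1 : Matrix (Fin 2 ⊕ Fin 2) (Fin 2 ⊕ Fin 2) ℤ) * lr a b c d =
      lr a b (c + k * a) (d + k * b) := by
  rw [lr, fromBlocks_multiply, lr]
  congr 1 <;> (ext i j; fin_cases i <;> fin_cases j <;> simp [add_comm])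

theorem LQ.adda {N : ℕ} {a c : ℤ} (k : ℤ) (h : LQ N (a + k * c) c) : LQ (N + 1) a c := by
  intro b d hd
  have h1 := h (b + k * d) d (by linear_combination hd)
  rw [← lr_U] at h1
  have hU : Pn 1 (fromBlocks 1 !![k, 0; 0, 0] 0 1 :
      Matrix (Fin 2 ⊕ Fin 2) (Fin 2 ⊕ Fin 2) ℤ) := pn_U (by
    ext i j; fin_cases i <;> fin_cases j <;> simp)
  exact (hU.of_mul_left h1).mono (by omega)

theorem LQ.addc {N : ℕ} {a c : ℤ} (k : ℤ) (h : LQ N a (c + k * a)) : LQ (N + 1) a c := by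
  intro b d hd
  have h1 := h b (d + k * b) (by linear_combination hd)
  rw [← lr_V] at h1
  have hU : Pn 1 (fromBlocks 1 0 !![k, 0; 0, 0] 1 :
      Matrix (Fin 2 ⊕ Fin 2) (Fin 2 ⊕ Fin 2) ℤ) := pn_V (by
    ext i j; fin_cases i <;> fin_cases j <;> simp)
  exact (hU.of_mul_left h1).mono (by omega)

theorem LQ_sq (a g : ℤ) : LQ 9 a (g * g) := fun b d h => lr_core h

/-- `a` odd -/
theorem LQ_odd {a c : ℤ} (ha : ¬ (2 : ℤ) ∣ a) (hac : IsCoprime a c) : LQ 12 a c := by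
  have ha0 : a ≠ 0 := fun h => ha (h ▸ dvd_zero 2)
  have hco2 : IsCoprime a 2 := by
    rw [Int.isCoprime_iff_gcd_eq_one, Int.gcd_comm]
    exact Int.isCoprime_iff_gcd_eq_one.mp ((Int.prime_two.coprime_iff_not_dvd).mpr ha)
  have hco4 : IsCoprime a 4 := by
    have := hco2.mul_right hco2
    norm_num at this
    exact this
  obtain ⟨q, hq, hqB, hqc, hq3⟩ := H350.exists_prime_two (a := a) (m := 4) (x := c) (y := 3)
    ha0 (by norm_num) hco4 hac.symm (by norm_num) 2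
  have hq3' : q % 4 = 3 := by omega
  obtain ⟨k, hk⟩ := hqc
  refine (LQ.addc k (N := 11) ?_).mono (by norm_num)
  have e1 : c + k * a = q := by linear_combination (-1 : ℤ) * hk
  rw [e1]
  have hFq : Fact q.Prime := ⟨hq⟩
  have haq : IsCoprime a (q : ℤ) := by
    have e2 : (q : ℤ) = c + a * k := by linear_combination hk
    rw [e2]
    exact IsCoprime.add_mul_left_right hac k
  have hq0 : (q : ℤ) ≠ 0 := by exact_mod_cast hq.ne_zero
  have hq4 : IsCoprime (q : ℤ) 4 := by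
    rw [Int.isCoprime_iff_gcd_eq_one]
    have h1 : Int.gcd (q : ℤ) 4 = Nat.gcd q 4 := rfl
    rw [h1]
    have h2 : Nat.Coprime q 4 := by
      have h3 : Nat.Coprime q 2 := (Nat.coprime_primes hq Nat.prime_two).mpr (by omega)
      have := h3.mul_right h3
      norm_num at this
      exact this
    exact h2
  -- choose `p`
  have key : ∃ p : ℕ, p.Prime ∧ q < p ∧ (q : ℤ) ∣ (p : ℤ) - a ∧ IsSquare ((q : ℕ) : ZMod p) := by
    by_cases hsq : IsSquare ((a : ℤ) : ZMod q)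
    · obtain ⟨p, hp, hpB, hpa, hp1⟩ := H350.exists_prime_two (a := q) (m := 4) (x := a) (y := 1)
        hq0 (by norm_num) hq4 haq (by norm_num) q
      have hFp : Fact p.Prime := ⟨hp⟩
      refine ⟨p, hp, hpB, hpa, ?_⟩
      rw [ZMod.exists_sq_eq_prime_iff_of_mod_four_eq_one (p := p) (q := q) (by omega) (by omega)]
      have e3 : ((p : ℕ) : ZMod q) = ((a : ℤ) : ZMod q) := by
        have := (ZMod.intCast_eq_intCast_iff_dvd_sub a (p : ℤ) q).mpr hpa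
        rw [this]; push_cast; rfl
      rw [e3]
      exact hsq
    · obtain ⟨p, hp, hpB, hpa, hp1⟩ := H350.exists_prime_two (a := q) (m := 4) (x := a) (y := 3)
        hq0 (by norm_num) hq4 haq (by norm_num) q
      have hFp : Fact p.Prime := ⟨hp⟩
      refine ⟨p, hp, hpB, hpa, ?_⟩
      rw [ZMod.exists_sq_eq_prime_iff_of_mod_four_eq_three (p := p) (q := q) (by omega) (by omega)
        (by omega)]
      have e3 : ((p : ℕ) : ZMod q) = ((a : ℤ) : ZMod q) := by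
        have := (ZMod.intCast_eq_intCast_iff_dvd_sub a (p : ℤ) q).mpr hpa
        rw [this]; push_cast; rfl
      rw [e3]
      exact hsq
  obtain ⟨p, hp, hpq, ⟨l, hl⟩, ⟨r, hr⟩⟩ := key
  refine (LQ.adda l (N := 10) ?_).mono (by norm_num)
  have e4 : a + l * q = p := by linear_combination (-1 : ℤ) * hl
  rw [e4]
  have hFp : Fact p.Prime := ⟨hp⟩
  obtain ⟨g, hg⟩ := ZMod.intCast_surjective r
  have e5 : ((q : ℤ) : ZMod p) = ((g * g : ℤ) : ZMod p) := by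
    push_cast
    rw [hg]
    exact hr
  obtain ⟨m, hm⟩ := (ZMod.intCast_eq_intCast_iff_dvd_sub _ _ p).mp e5
  refine (LQ.addc m (N := 9) ?_).mono (by norm_num)
  have e6 : (q : ℤ) + m * p = g * g := by linear_combination (-1 : ℤ) * hm
  rw [e6]
  exact LQ_sq _ _

/-- Long root elements of `Sp_4(ℤ)` are products of at most 13 blocks. -/
theorem pn_lr {a b c d : ℤ} (h : a * d - b * c = 1) : Pn 13 (lr a b c d) := by
  have hac : IsCoprime a c := ⟨d, -b, by linear_combination h⟩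
  by_cases ha : (2 : ℤ) ∣ a
  · have hc : ¬ (2 : ℤ) ∣ c := by
      intro hc
      have h1 : (2 : ℤ) ∣ a * d - b * c := dvd_sub (ha.mul_right d) (hc.mul_left b)
      rw [h] at h1
      norm_num at h1
    refine (LQ.adda (N := 12) (a := a) (c := c) 1 ?_) b d h
    rw [one_mul]
    refine LQ_odd (fun h2 => hc ?_) ?_
    · have := dvd_sub h2 ha
      simpa using this
    · have := IsCoprime.add_mul_right_left hac 1
      rwa [one_mul] at this
  · exact ((LQ_odd ha hac).mono (by norm_num)) b d h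

end Vale.Agent.P092.R2.H32
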