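import Vale.Agent.P092.R2.H32.Grp
import Vale.Agent.P092.R2.H32.T0
import Vale.Agent.P092.H350.BG

/-!
Property (T) for the groups `G_ε`, `n ≥ 3`.
-/

set_option linter.all false

open Matrix
open scoped Pointwise

namespace Vale.Agent.P092.R2.H32

variable {n : ℕ}

/-! ### Elementary matrices -/

/-- `1 + k E_ij` -/
def el (i j : Fin n) (hij : i ≠ j) (k : ℤ) : GL (Fin n) ℤ where
  val := transvection i j k
  inv := transvection i j (-k)
  val_inv := by rw [transvection_mul_transvection_same _ _ hij, add_neg_cancel, transvection_zero]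
  inv_val := by rw [transvection_mul_transvection_same _ _ hij, neg_add_cancel, transvection_zero]

theorem el_val (i j : Fin n) (hij : i ≠ j) (k : ℤ) :
    ((el i j hij k : GL (Fin n) ℤ) : Matrix (Fin n) (Fin n) ℤ) = transvection i j k := rfl

theorem el_inv_val (i j : Fin n) (hij : i ≠ j) (k : ℤ) :
    (((el i j hij k)⁻¹ : GL (Fin n) ℤ) : Matrix (Fin n) (Fin n) ℤ) = transvection i j (-k) := rfl

theorem el_add {i j : Fin n} (hij : i ≠ j) (k l : ℤ) :
    el i j hij (k + l) = el i j hij k * el i j hij l := by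
  ext1
  rw [Units.val_mul, el_val, el_val, el_val, transvection_mul_transvection_same _ _ hij]

theorem el_zero {i j : Fin n} (hij : i ≠ j) : el i j hij 0 = 1 := by
  ext1
  rw [el_val, transvection_zero]
  rfl

theorem el_inv {i j : Fin n} (hij : i ≠ j) (k : ℤ) : (el i j hij k)⁻¹ = el i j hij (-k) := by
  ext1
  rw [el_inv_val, el_val]

theorem el_zpow {i j : Fin n} (hij : i ≠ j) (k m : ℤ) : el i j hij k ^ m = el i j hij (m * k) := by
  let f : Multiplicative ℤ →* GL (Fin n) ℤ :=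
    { toFun := fun k => el i j hij k.toAdd
      map_one' := el_zero hij
      map_mul' := fun k l => el_add hij _ _ }
  have h := map_zpow f (Multiplicative.ofAdd k) m
  have e : f (Multiplicative.ofAdd k ^ m) = el i j hij (m * k) := by
    rw [← ofAdd_zsmul, smul_eq_mul]
    rfl
  rw [e] at h
  exact h.symm

theorem el_pow {i j : Fin n} (hij : i ≠ j) (k : ℤ) (m : ℕ) :
    el i j hij k ^ m = el i j hij (m * k) := by
  rw [← zpow_natCast, el_zpow]

theorem it_el {i j : Fin n} (hij : i ≠ j) (k : ℤ) : it (el i j hij k) = transvection j i (-k) := by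
  rw [it, el_inv_val, transvection, transvection, transpose_add, transpose_one, transpose_single]

theorem el_comm_left {i j l : Fin n} (hij : i ≠ j) (hil : i ≠ l) (k m : ℤ) :
    el i j hij k * el i l hil m = el i l hil m * el i j hij k := by
  ext1
  rw [Units.val_mul, Units.val_mul, el_val, el_val]
  simp only [transvection, Matrix.mul_add, Matrix.add_mul, Matrix.one_mul, Matrix.mul_one,
    single_mul_single_of_ne _ _ _ _ hij.symm, single_mul_single_of_ne _ _ _ _ hil.symm]
  abel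

theorem el_comm_right {i j l : Fin n} (hil : i ≠ l) (hjl : j ≠ l) (k m : ℤ) :
    el i l hil k * el j l hjl m = el j l hjl m * el i l hil k := by
  ext1
  rw [Units.val_mul, Units.val_mul, el_val, el_val]
  simp only [transvection, Matrix.mul_add, Matrix.add_mul, Matrix.one_mul, Matrix.mul_one,
    single_mul_single_of_ne _ _ _ _ hil.symm, single_mul_single_of_ne _ _ _ _ hjl.symm]
  abel

theorem el_rel {i j l : Fin n} (hij : i ≠ j) (hjl : j ≠ l) (hil : i ≠ l) (k m : ℤ) :
    el i j hij k * el j l hjl m = el j l hjl m * el i l hil (k * m) * el i j hij k := by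
  ext1
  rw [Units.val_mul, Units.val_mul, Units.val_mul, el_val, el_val, el_val]
  simp only [transvection, Matrix.mul_add, Matrix.add_mul, Matrix.one_mul, Matrix.mul_one,
    single_mul_single_same, single_mul_single_of_ne _ _ _ _ hjl.symm,
    single_mul_single_of_ne _ _ _ _ hij.symm, single_mul_single_of_ne _ _ _ _ hil.symm]
  simp only [single_mul_single_of_ne _ _ _ _ hil.symm, Matrix.zero_mul]
  abel

/-! ### Elements of `G_ε` -/

variable {ε : ℤ}

/-- the element of `G_ε` given by `h ∈ GL_n(ℤ)` -/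
noncomputable def eh (ε : ℤ) (h : GL (Fin n) ℤ) : GG n ε := Tw.s (bb n ε) ⟨0, transpose_zero, h⟩

theorem eh_mul (g h : GL (Fin n) ℤ) : eh ε (g * h) = eh ε g * eh ε h := by
  rw [eh, eh, eh, Tw.s_mul, bb_b]
  simp only [β_zero_right, smul_zero]
  have e : ((0 : Fin n → ℤ), (0 : Fin n → ℤ)) = (0 : AA n) := rfl
  rw [e, Tw.t_zero, one_mul]
  congr 1
  ext1
  · simp
  · rfl

theorem eh_one : eh ε (1 : GL (Fin n) ℤ) = 1 := rfl

/-- `eh` as a homomorphism -/
noncomputable def ehHom (n : ℕ) (ε : ℤ) : GL (Fin n) ℤ →* GG n ε where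
  toFun := eh ε
  map_one' := eh_one
  map_mul' := eh_mul

theorem eh_inv (g : GL (Fin n) ℤ) : eh ε g⁻¹ = (eh ε g)⁻¹ := map_inv (ehHom n ε) g
theorem eh_pow (g : GL (Fin n) ℤ) (m : ℕ) : eh ε (g ^ m) = (eh ε g) ^ m :=
  map_pow (ehHom n ε) g m
theorem eh_zpow (g : GL (Fin n) ℤ) (m : ℤ) : eh ε (g ^ m) = (eh ε g) ^ m :=
  map_zpow (ehHom n ε) g m

/-- symmetric matrices -/
def Sy (n : ℕ) : AddSubgroup (Matrix (Fin n) (Fin n) ℤ) where
  carrier := {S | Sᵀ = S}
  add_mem' := fun {a b} ha hb => by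
    rw [Set.mem_setOf_eq] at *
    rw [transpose_add, ha, hb]
  zero_mem' := transpose_zero
  neg_mem' := fun {a} ha => by
    rw [Set.mem_setOf_eq] at *
    rw [transpose_neg, ha]

/-- the element of `G_ε` given by a symmetric matrix -/
noncomputable def sy (ε : ℤ) (S : Sy n) : GG n ε := Tw.s (bb n ε) ⟨S.1, S.2, 1⟩

theorem sy_add (S T : Sy n) : sy ε (S + T) = sy ε S * sy ε T := by
  rw [sy, sy, sy, Tw.s_mul, bb_b]
  simp only [Units.val_one, β_one_left T.2, smul_zero]
  have e : ((0 : Fin n → ℤ), (0 : Fin n → ℤ)) = (0 : AA n) := rfl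
  rw [e, Tw.t_zero, one_mul]
  congr 1
  ext1
  · simp
  · exact (one_mul _).symm

theorem sy_zero : sy ε (0 : Sy n) = 1 := rfl

theorem sy_zsmul (k : ℤ) (S : Sy n) : sy ε (k • S) = sy ε S ^ k := by
  let f : Sy n →+ Additive (GG n ε) :=
    { toFun := fun a => Additive.ofMul (sy ε a), map_zero' := rfl, map_add' := fun a a' => by
        rw [sy_add]; rfl }
  exact map_zsmul f k S

theorem t_zsmul' (k : ℤ) (a : AA n) : Tw.t (bb n ε) (k • a) = Tw.t (bb n ε) a ^ k :=
  Tw.t_zsmul k a

theorem eh_t (h : GL (Fin n) ℤ) (a : AA n) :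
    eh ε h * Tw.t (bb n ε) a = Tw.t (bb n ε) ((h : Matrix (Fin n) (Fin n) ℤ) *ᵥ a.1, it h *ᵥ a.2) *
      eh ε h := by
  have h1 := Tw.t_conj (eh ε h) a
  rw [mul_inv_eq_iff_eq_mul] at h1
  rw [h1]
  congr 2
  ext1
  · rw [smul_fst]
    change (h : Matrix (Fin n) (Fin n) ℤ) *ᵥ a.1 + (0 : Matrix (Fin n) (Fin n) ℤ) *ᵥ _ = _
    rw [zero_mulVec, add_zero]
  · rw [smul_snd]
    rfl

/-- `h S hᵀ` -/
def cj (h : GL (Fin n) ℤ) (S : Sy n) : Sy n :=
  ⟨(h : Matrix (Fin n) (Fin n) ℤ) * S.1 * (h : Matrix (Fin n) (Fin n) ℤ)ᵀ, Par.symm_conj S.2 _⟩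

theorem eh_sy (h : GL (Fin n) ℤ) (S : Sy n) :
    eh ε h * sy ε S =
      Tw.t (bb n ε) (ε • β (h : Matrix (Fin n) (Fin n) ℤ) S.1, 0) * sy ε (cj h S) * eh ε h := by
  have h1 : sy ε (cj h S) * eh ε h = Tw.s (bb n ε)
      (⟨0, transpose_zero, h⟩ * ⟨S.1, S.2, 1⟩) := by
    rw [sy, eh, Tw.s_mul, bb_b]
    simp only [Units.val_one, β_one_left transpose_zero, smul_zero]
    have e : ((0 : Fin n → ℤ), (0 : Fin n → ℤ)) = (0 : AA n) := rfl
    rw [e, Tw.t_zero, one_mul]
    congr 1
    ext1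
    · simp [cj]
    · simp
  rw [mul_assoc, h1, eh, sy, Tw.s_mul, bb_b]

theorem eq_prod (g : GG n ε) :
    g = Tw.t (bb n ε) (g.a.1, 0) * Tw.t (bb n ε) (0, g.a.2) * sy ε ⟨g.p.S, g.p.symm⟩ *
      eh ε g.p.h := by
  have h1 : Tw.t (bb n ε) (g.a.1, 0) * Tw.t (bb n ε) (0, g.a.2) = Tw.t (bb n ε) g.a := by
    rw [← Tw.t_add]
    congr 1
    ext1 <;> simp
  have h2 : sy ε ⟨g.p.S, g.p.symm⟩ * eh ε g.p.h = Tw.s (bb n ε) g.p := by
    rw [sy, eh, Tw.s_mul, bb_b]
    simp only [Units.val_one, β_one_left transpose_zero, smul_zero]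
    have e : ((0 : Fin n → ℤ), (0 : Fin n → ℤ)) = (0 : AA n) := rfl
    rw [e, Tw.t_zero, one_mul]
    congr 1
    ext1
    · simp
    · simp
  rw [h1, mul_assoc, h2]
  exact Tw.eq_t_mul_s g

/-! ### The four kinds of pairs -/

theorem rel_el {i j l : Fin n} (hij : i ≠ j) (hjl : j ≠ l) (hil : i ≠ l) :
    Rel (eh ε (el i l hil 1)) (eh ε (el j l hjl 1)) (eh ε (el i j hij 3))
      (eh ε (el j i hij.symm 3)) where
  xy := by rw [← eh_mul, ← eh_mul, el_comm_right]
  ax := by rw [← eh_mul, ← eh_mul, el_comm_left]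
  ay := by
    rw [← eh_pow, el_pow, ← eh_mul, ← eh_mul, ← eh_mul, el_rel hij hjl hil]
    norm_num
  by' := by rw [← eh_mul, ← eh_mul, el_comm_left]
  bx := by
    rw [← eh_pow, el_pow, ← eh_mul, ← eh_mul, ← eh_mul, el_rel hij.symm hil hjl]
    norm_num

theorem transvection_mulVec_single (i j k : Fin n) (c : ℤ) :
    transvection i j c *ᵥ Pi.single k 1 = Pi.single k 1 + if j = k then Pi.single i c else 0 := by
  rw [transvection, add_mulVec, one_mulVec]
  congr 1
  ext m
  rw [mulVec_single]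
  simp only [Matrix.col_apply, MulOpposite.op_one, one_smul, Pi.smul_apply]
  rw [Matrix.single_apply]
  by_cases h1 : j = k
  · by_cases h2 : i = m
    · subst h1 h2; simp
    · simp [h1, h2, Pi.single_apply, Ne.symm h2]
  · simp [h1]

theorem rel_w {i j : Fin n} (hij : i ≠ j) :
    Rel (Tw.t (bb n ε) (Pi.single i 1, 0)) (Tw.t (bb n ε) (Pi.single j 1, 0))
      (eh ε (el i j hij 3)) (eh ε (el j i hij.symm 3)) where
  xy := Tw.t_comm _ _
  ax := by
    rw [eh_t, el_val, transvection_mulVec_single, if_neg hij.symm, add_zero, mulVec_zero]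
  ay := by
    rw [eh_t, el_val, transvection_mulVec_single, if_pos rfl, ← zpow_natCast, ← Tw.t_zsmul,
      ← Tw.t_add]
    congr 2
    ext1
    · simp [← Pi.single_smul]
    · simp
  by' := by
    rw [eh_t, el_val, transvection_mulVec_single, if_neg hij, add_zero, mulVec_zero]
  bx := by
    rw [eh_t, el_val, transvection_mulVec_single, if_pos rfl, ← zpow_natCast, ← Tw.t_zsmul,
      ← Tw.t_add]
    congr 2
    ext1
    · simp [← Pi.single_smul]
    · simp

theorem rel_φ {i j : Fin n} (hij : i ≠ j) :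
    Rel (Tw.t (bb n ε) (0, Pi.single i 1)) (Tw.t (bb n ε) (0, Pi.single j 1))
      (eh ε (el j i hij.symm (-3))) (eh ε (el i j hij (-3))) where
  xy := Tw.t_comm _ _
  ax := by
    rw [eh_t, it_el, transvection_mulVec_single, if_neg hij.symm, add_zero, mulVec_zero]
  ay := by
    rw [eh_t, it_el, transvection_mulVec_single, if_pos rfl, ← zpow_natCast, ← Tw.t_zsmul,
      ← Tw.t_add]
    congr 2
    ext1
    · simp
    · simp [← Pi.single_smul]
  by' := by
    rw [eh_t, it_el, transvection_mulVec_single, if_neg hij, add_zero, mulVec_zero]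
  bx := by
    rw [eh_t, it_el, transvection_mulVec_single, if_pos rfl, ← zpow_natCast, ← Tw.t_zsmul,
      ← Tw.t_add]
    congr 2
    ext1
    · simp
    · simp [← Pi.single_smul]

/-- `E_ij + E_ji` -/
def off (i j : Fin n) : Sy n := ⟨Matrix.single i j 1 + Matrix.single j i 1, by
  change (_ : Matrix (Fin n) (Fin n) ℤ)ᵀ = _
  rw [transpose_add, transpose_single, transpose_single, add_comm]⟩

/-- `E_ii` -/
def dg (i : Fin n) : Sy n := ⟨Matrix.single i i 1, by
  change (_ : Matrix (Fin n) (Fin n) ℤ)ᵀ = _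
  rw [transpose_single]⟩

theorem cj_off_ax {i j l : Fin n} (hij : i ≠ j) (hjl : j ≠ l) (hil : i ≠ l) (k : ℤ) :
    cj (el i j hij k) (off i l) = off i l := by
  ext1
  change transvection i j k * (Matrix.single i l 1 + Matrix.single l i 1) *
    (transvection i j k)ᵀ = Matrix.single i l 1 + Matrix.single l i 1
  simp only [transvection, transpose_add, transpose_one, transpose_single, Matrix.mul_add,
    Matrix.add_mul, Matrix.one_mul, Matrix.mul_one, single_mul_single_of_ne _ _ _ _ hij.symm,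
    single_mul_single_of_ne _ _ _ _ hjl, single_mul_single_of_ne _ _ _ _ hjl.symm,
    single_mul_single_of_ne _ _ _ _ hij, Matrix.zero_mul]
  abel

theorem cj_off_ay {i j l : Fin n} (hij : i ≠ j) (hjl : j ≠ l) (hil : i ≠ l) (k : ℤ) :
    cj (el i j hij k) (off j l) = off j l + k • off i l := by
  ext1
  change transvection i j k * (Matrix.single j l 1 + Matrix.single l j 1) *
    (transvection i j k)ᵀ = (Matrix.single j l 1 + Matrix.single l j 1) +
      k • (Matrix.single i l 1 + Matrix.single l i 1)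
  simp only [transvection, transpose_add, transpose_one, transpose_single, Matrix.mul_add,
    Matrix.add_mul, Matrix.one_mul, Matrix.mul_one, single_mul_single_same,
    single_mul_single_of_ne _ _ _ _ hij.symm,
    single_mul_single_of_ne _ _ _ _ hjl, single_mul_single_of_ne _ _ _ _ hjl.symm,
    single_mul_single_of_ne _ _ _ _ hij, Matrix.zero_mul, one_mul, mul_one, smul_add, smul_single,
    smul_eq_mul]
  abel

theorem diag_off {i j : Fin n} (hij : i ≠ j) : (off i j).1.diag = 0 := by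
  ext m
  change (Matrix.single i j (1 : ℤ) + Matrix.single j i 1 : Matrix (Fin n) (Fin n) ℤ) m m = 0
  rw [Matrix.add_apply, Matrix.single_apply, Matrix.single_apply, if_neg, if_neg, add_zero]
  · rintro ⟨h1, h2⟩; exact hij (h2.trans h1.symm)
  · rintro ⟨h1, h2⟩; exact hij (h1.trans h2.symm)

theorem β_eq_zero {h : GL (Fin n) ℤ} {S : Sy n} (h1 : S.1.diag = 0) (h2 : (cj h S).1.diag = 0) :
    β (h : Matrix (Fin n) (Fin n) ℤ) S.1 = 0 := by
  apply two_smul_inj
  rw [two_β _ S.2, twoβ, h1, mulVec_zero]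
  have : ((h : Matrix (Fin n) (Fin n) ℤ) * S.1 * (h : Matrix (Fin n) (Fin n) ℤ)ᵀ).diag = 0 := h2
  rw [this]
  simp

theorem eh_sy' {h : GL (Fin n) ℤ} {S : Sy n} (h1 : S.1.diag = 0) (h2 : (cj h S).1.diag = 0) :
    eh ε h * sy ε S = sy ε (cj h S) * eh ε h := by
  rw [eh_sy, β_eq_zero h1 h2, smul_zero]
  have e : ((0 : Fin n → ℤ), (0 : Fin n → ℤ)) = (0 : AA n) := rfl
  rw [e, Tw.t_zero, one_mul]

theorem sy_comm (S T : Sy n) : sy ε S * sy ε T = sy ε T * sy ε S := by
  rw [← sy_add, ← sy_add, add_comm]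

theorem rel_sy {i j l : Fin n} (hij : i ≠ j) (hjl : j ≠ l) (hil : i ≠ l) :
    Rel (sy ε (off i l)) (sy ε (off j l)) (eh ε (el i j hij 3)) (eh ε (el j i hij.symm 3)) where
  xy := sy_comm _ _
  ax := by
    have e := cj_off_ax hij hjl hil 3
    rw [eh_sy' (diag_off hil) (by rw [e]; exact diag_off hil), e]
  ay := by
    have e := cj_off_ay hij hjl hil 3
    rw [eh_sy' (diag_off hjl) (by
      rw [e]
      change (off j l).1.diag + ((3 : ℤ) • (off i l).1).diag = 0
      rw [diag_smul, diag_off hjl, diag_off hil, smul_zero, add_zero]), e, sy_add,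
      sy_zsmul]
    rfl
  by' := by
    have e := cj_off_ax hij.symm hil hjl 3
    rw [eh_sy' (diag_off hjl) (by rw [e]; exact diag_off hjl), e]
  bx := by
    have e := cj_off_ay hij.symm hil hjl 3
    rw [eh_sy' (diag_off hil) (by
      rw [e]
      change (off i l).1.diag + ((3 : ℤ) • (off j l).1).diag = 0
      rw [diag_smul, diag_off hjl, diag_off hil, smul_zero, add_zero]), e, sy_add,
      sy_zsmul]
    rfl

end Vale.Agent.P092.R2.H32
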