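import Vale.Agent.P092.R2.H32.T1
import Vale.Agent.P092.H350.LinAlg

/-!
Property (T) for the groups `G_ε`, `n ≥ 3`: the proof.
-/

set_option linter.all false

open Matrix
open scoped Pointwise

namespace Vale.Agent.P092.R2.H32

section General

variable {G : Type} [Group G] {Q : Set G}

theorem UB.of_mem {q : G} (h : q ∈ Q) : UB Q {q} := UB.self.mono (Set.singleton_subset_iff.mpr h)

theorem UB.pow1 {q : G} (h : UB Q {q}) (m : ℕ) : UB Q {q ^ m} := by
  have := h.pow m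
  rwa [Set.singleton_pow] at this

theorem UB.inv1 {q : G} (h : UB Q {q}) : UB Q {q⁻¹} := by
  have := h.inv
  rwa [Set.inv_singleton] at this

theorem UB.sum {B ι : Type} [AddCommMonoid B] (f : B → G) (hf0 : f 0 = 1)
    (hf : ∀ a b, f (a + b) = f a * f b) (s : Finset ι) (Y : ι → Set B)
    (h : ∀ i ∈ s, UB Q (f '' Y i)) :
    UB Q (f '' {b | ∃ y : ι → B, (∀ i ∈ s, y i ∈ Y i) ∧ b = ∑ i ∈ s, y i}) := by
  classical
  induction s using Finset.induction_on with
  | empty =>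
    refine UB.one.mono ?_
    rintro _ ⟨b, ⟨y, -, rfl⟩, rfl⟩
    rw [Finset.sum_empty, hf0]
    rfl
  | insert a s ha ih =>
    refine ((h a (Finset.mem_insert_self a s)).mul
      (ih fun i hi => h i (Finset.mem_insert_of_mem hi))).mono ?_
    rintro _ ⟨b, ⟨y, hy, rfl⟩, rfl⟩
    rw [Finset.sum_insert ha, hf]
    exact Set.mul_mem_mul ⟨y a, hy a (Finset.mem_insert_self a s), rfl⟩
      ⟨_, ⟨y, fun i hi => hy i (Finset.mem_insert_of_mem hi), rfl⟩, rfl⟩

end General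

variable {n : ℕ} {ε : ℤ}

/-- the diagonal matrix with `-1` in position `i` -/
def sg (i : Fin n) : GL (Fin n) ℤ where
  val := diagonal fun k => if k = i then -1 else 1
  inv := diagonal fun k => if k = i then -1 else 1
  val_inv := by
    rw [diagonal_mul_diagonal, ← diagonal_one]
    congr 1
    ext k
    by_cases h : k = i <;> simp [h]
  inv_val := by
    rw [diagonal_mul_diagonal, ← diagonal_one]
    congr 1
    ext k
    by_cases h : k = i <;> simp [h]

theorem sg_mul (i : Fin n) : sg i * sg i = 1 := by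
  ext1
  exact (sg i).val_inv

theorem det_sg (i : Fin n) : (sg i : Matrix (Fin n) (Fin n) ℤ).det = -1 := by
  change (diagonal fun k => if k = i then (-1 : ℤ) else 1).det = -1
  rw [det_diagonal, Finset.prod_ite_eq']
  simp

/-- The finite Kazhdan set. -/
def Qs (n : ℕ) (ε : ℤ) : Set (GG n ε) :=
  (Set.range fun p : {p : Fin n × Fin n // p.1 ≠ p.2} => eh ε (el p.1.1 p.1.2 p.2 1)) ∪
  (Set.range fun i : Fin n => Tw.t (bb n ε) (Pi.single i 1, 0)) ∪
  (Set.range fun i : Fin n => Tw.t (bb n ε) (0, Pi.single i 1)) ∪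
  (Set.range fun p : Fin n × Fin n => sy ε (off p.1 p.2)) ∪
  (Set.range fun i : Fin n => sy ε (dg i)) ∪
  (Set.range fun i : Fin n => eh ε (sg i))

theorem Qs_finite (n : ℕ) (ε : ℤ) : (Qs n ε).Finite := by
  refine Set.Finite.union (Set.Finite.union (Set.Finite.union (Set.Finite.union
    (Set.Finite.union ?_ ?_) ?_) ?_) ?_) ?_ <;> exact Set.finite_range _

theorem ub_el1 {i j : Fin n} (hij : i ≠ j) : UB (Qs n ε) {eh ε (el i j hij 1)} :=
  UB.of_mem (Or.inl (Or.inl (Or.inl (Or.inl (Or.inl ⟨⟨(i, j), hij⟩, rfl⟩)))))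

theorem ub_w1 (i : Fin n) : UB (Qs n ε) {Tw.t (bb n ε) (Pi.single i 1, 0)} :=
  UB.of_mem (Or.inl (Or.inl (Or.inl (Or.inl (Or.inr ⟨i, rfl⟩)))))

theorem ub_φ1 (i : Fin n) : UB (Qs n ε) {Tw.t (bb n ε) (0, Pi.single i 1)} :=
  UB.of_mem (Or.inl (Or.inl (Or.inl (Or.inr ⟨i, rfl⟩))))

theorem ub_off1 (i j : Fin n) : UB (Qs n ε) {sy ε (off i j)} :=
  UB.of_mem (Or.inl (Or.inl (Or.inr ⟨(i, j), rfl⟩)))

theorem ub_dg1 (i : Fin n) : UB (Qs n ε) {sy ε (dg i)} :=
  UB.of_mem (Or.inl (Or.inr ⟨i, rfl⟩))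

theorem ub_sg1 (i : Fin n) : UB (Qs n ε) {eh ε (sg i)} :=
  UB.of_mem (Or.inr ⟨i, rfl⟩)

theorem ub_el3 {i j : Fin n} (hij : i ≠ j) : UB (Qs n ε) {eh ε (el i j hij 3)} := by
  have h := (ub_el1 (ε := ε) hij).pow1 3
  rw [← eh_pow, el_pow] at h
  exact h

theorem ub_el3' {i j : Fin n} (hij : i ≠ j) : UB (Qs n ε) {eh ε (el i j hij (-3))} := by
  have h := (ub_el3 (ε := ε) hij).inv1
  rw [← eh_inv, el_inv] at h
  exact h

theorem ub_el (hn : 3 ≤ n) {i l : Fin n} (hil : i ≠ l) :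
    UB (Qs n ε) (Set.range fun k : ℤ => eh ε (el i l hil k)) := by
  obtain ⟨j, hji, hjl⟩ := H350.exists_third hn i l
  refine (UB.rel (rel_el hji.symm hjl hil) (ub_el1 _) (ub_el1 _) (ub_el3 _) (ub_el3 _)).mono ?_
  rintro _ ⟨k, rfl⟩
  have e : eh ε (el i l hil k) = eh ε (el i l hil 1) ^ k := by
    rw [← eh_zpow, el_zpow, mul_one]
  simp only [e]
  exact Subgroup.zpow_mem _ (Subgroup.subset_closure (by simp)) _

theorem exists_ne (hn : 3 ≤ n) (i : Fin n) : ∃ j : Fin n, i ≠ j := by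
  obtain ⟨j, h, -⟩ := H350.exists_third hn i i
  exact ⟨j, h.symm⟩

theorem ub_wi (hn : 3 ≤ n) (i : Fin n) :
    UB (Qs n ε) (Set.range fun k : ℤ => Tw.t (bb n ε) (Pi.single i k, 0)) := by
  obtain ⟨j, hij⟩ := exists_ne hn i
  refine (UB.rel (rel_w hij) (ub_w1 _) (ub_w1 _) (ub_el3 _) (ub_el3 _)).mono ?_
  rintro _ ⟨k, rfl⟩
  have e : Tw.t (bb n ε) (Pi.single i k, 0) = Tw.t (bb n ε) (Pi.single i 1, 0) ^ k := by
    rw [← Tw.t_zsmul]
    congr 1
    ext1
    · simp [← Pi.single_smul]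
    · simp
  simp only [e]
  exact Subgroup.zpow_mem _ (Subgroup.subset_closure (by simp)) _

theorem ub_φi (hn : 3 ≤ n) (i : Fin n) :
    UB (Qs n ε) (Set.range fun k : ℤ => Tw.t (bb n ε) (0, Pi.single i k)) := by
  obtain ⟨j, hij⟩ := exists_ne hn i
  refine (UB.rel (rel_φ hij) (ub_φ1 _) (ub_φ1 _) (ub_el3' _) (ub_el3' _)).mono ?_
  rintro _ ⟨k, rfl⟩
  have e : Tw.t (bb n ε) (0, Pi.single i k) = Tw.t (bb n ε) (0, Pi.single i 1) ^ k := by
    rw [← Tw.t_zsmul]
    congr 1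
    ext1
    · simp
    · simp [← Pi.single_smul]
  simp only [e]
  exact Subgroup.zpow_mem _ (Subgroup.subset_closure (by simp)) _

theorem ub_off (hn : 3 ≤ n) {i l : Fin n} (hil : i ≠ l) :
    UB (Qs n ε) (Set.range fun k : ℤ => sy ε (k • off i l)) := by
  obtain ⟨j, hji, hjl⟩ := H350.exists_third hn i l
  refine (UB.rel (rel_sy hji.symm hjl hil) (ub_off1 _ _) (ub_off1 _ _) (ub_el3 _)
    (ub_el3 _)).mono ?_
  rintro _ ⟨k, rfl⟩
  simp only [sy_zsmul]
  exact Subgroup.zpow_mem _ (Subgroup.subset_closure (by simp)) _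

theorem ub_W (hn : 3 ≤ n) :
    UB (Qs n ε) (Set.range fun w : Fin n → ℤ => Tw.t (bb n ε) (w, 0)) := by
  refine (UB.sum (fun w : Fin n → ℤ => Tw.t (bb n ε) (w, 0)) rfl (fun a b => ?_) Finset.univ
    (fun i => Set.range fun k : ℤ => Pi.single i k) (fun i _ => ?_)).mono ?_
  · rw [← Tw.t_add, Prod.mk_add_mk, add_zero]
  · rw [← Set.range_comp]
    exact ub_wi hn i
  · rintro _ ⟨w, rfl⟩
    exact ⟨w, ⟨fun i => Pi.single i (w i), fun i _ => ⟨w i, rfl⟩,
      (Finset.univ_sum_single w).symm⟩, rfl⟩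

theorem ub_Φ (hn : 3 ≤ n) :
    UB (Qs n ε) (Set.range fun w : Fin n → ℤ => Tw.t (bb n ε) (0, w)) := by
  refine (UB.sum (fun w : Fin n → ℤ => Tw.t (bb n ε) (0, w)) rfl (fun a b => ?_) Finset.univ
    (fun i => Set.range fun k : ℤ => Pi.single i k) (fun i _ => ?_)).mono ?_
  · rw [← Tw.t_add, Prod.mk_add_mk, add_zero]
  · rw [← Set.range_comp]
    exact ub_φi hn i
  · rintro _ ⟨w, rfl⟩
    exact ⟨w, ⟨fun i => Pi.single i (w i), fun i _ => ⟨w i, rfl⟩,
      (Finset.univ_sum_single w).symm⟩, rfl⟩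

theorem cj_off_self {i j : Fin n} (hij : i ≠ j) :
    cj (el i j hij 1) (off i j) = off i j + (2 : ℤ) • dg i := by
  ext1
  change transvection i j 1 * (Matrix.single i j 1 + Matrix.single j i 1) *
    (transvection i j 1)ᵀ = (Matrix.single i j 1 + Matrix.single j i 1) +
      (2 : ℤ) • Matrix.single i i 1
  simp only [transvection, transpose_add, transpose_one, transpose_single, Matrix.mul_add,
    Matrix.add_mul, Matrix.one_mul, Matrix.mul_one, single_mul_single_same,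
    single_mul_single_of_ne _ _ _ _ hij.symm, single_mul_single_of_ne _ _ _ _ hij, Matrix.zero_mul,
    mul_one, two_smul]
  abel

theorem cj_zsmul (h : GL (Fin n) ℤ) (k : ℤ) (S : Sy n) : cj h (k • S) = k • cj h S := by
  ext1
  change (h : Matrix (Fin n) (Fin n) ℤ) * (k • S.1) * (h : Matrix (Fin n) (Fin n) ℤ)ᵀ =
    k • ((h : Matrix (Fin n) (Fin n) ℤ) * S.1 * (h : Matrix (Fin n) (Fin n) ℤ)ᵀ)
  rw [Matrix.mul_smul, Matrix.smul_mul]

theorem ub_dg (hn : 3 ≤ n) (i : Fin n) :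
    UB (Qs n ε) (Set.range fun k : ℤ => sy ε (k • dg i)) := by
  obtain ⟨j, hij⟩ := exists_ne hn i
  have h2 : UB (Qs n ε) (Set.range fun k : ℤ => sy ε ((2 * k) • dg i)) := by
    have hW := ub_W (ε := ε) hn
    have hO := ub_off (ε := ε) hn hij
    have hE := ub_el1 (ε := ε) hij
    refine (hO.inv.mul (((hW.inv.mul hE).mul hO).mul hE.inv)).mono ?_
    rintro _ ⟨k, rfl⟩
    have e1 := eh_sy (ε := ε) (el i j hij 1) (k • off i j)
    rw [cj_zsmul, cj_off_self, smul_add, smul_smul, mul_comm k 2, sy_add] at e1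
    have e2 : sy ε ((2 * k) • dg i) = (sy ε (k • off i j))⁻¹ *
        ((Tw.t (bb n ε) (ε • β ((el i j hij 1 : GL (Fin n) ℤ) : Matrix (Fin n) (Fin n) ℤ)
          (k • off i j : Sy n).1, 0))⁻¹ * eh ε (el i j hij 1) * sy ε (k • off i j) *
          (eh ε (el i j hij 1))⁻¹) := by
      rw [mul_assoc _ (eh ε (el i j hij 1)), e1]
      group
    simp only [e2]
    refine Set.mul_mem_mul (Set.inv_mem_inv.mpr ⟨k, rfl⟩) (Set.mul_mem_mul (Set.mul_mem_mul
      (Set.mul_mem_mul (Set.inv_mem_inv.mpr ⟨_, rfl⟩) rfl) ⟨k, rfl⟩) (Set.inv_mem_inv.mpr rfl))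
  refine (h2.mul (UB.one.union (ub_dg1 i))).mono ?_
  rintro _ ⟨k, rfl⟩
  rcases Int.even_or_odd' k with ⟨m, rfl | rfl⟩
  · exact Set.mem_mul.mpr ⟨_, ⟨m, rfl⟩, 1, Or.inl rfl, mul_one _⟩
  · refine Set.mem_mul.mpr ⟨_, ⟨m, rfl⟩, _, Or.inr rfl, ?_⟩
    simp only
    rw [add_smul, one_smul, sy_add]

theorem sy_decomp (S : Sy n) : S = ∑ p : Fin n × Fin n,
    (if p.1 < p.2 then S.1 p.1 p.2 • off p.1 p.2 else
      if p.1 = p.2 then S.1 p.1 p.1 • dg p.1 else 0) := by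
  have hS : ∀ i j, S.1 i j = S.1 j i := fun i j => by
    conv_lhs => rw [← S.2]
    rfl
  ext1
  rw [AddSubgroup.val_finset_sum]
  have e1 : ∀ p : Fin n × Fin n, ((if p.1 < p.2 then S.1 p.1 p.2 • off p.1 p.2 else
      if p.1 = p.2 then S.1 p.1 p.1 • dg p.1 else 0 : Sy n) : Matrix (Fin n) (Fin n) ℤ) =
      (if p.1 < p.2 then Matrix.single p.1 p.2 (S.1 p.1 p.2) else 0) +
      (if p.1 < p.2 then Matrix.single p.2 p.1 (S.1 p.2 p.1) else 0) +
      (if p.1 = p.2 then Matrix.single p.1 p.2 (S.1 p.1 p.2) else 0) := by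
    rintro ⟨i, j⟩
    by_cases h1 : i < j
    · have h2 : i ≠ j := h1.ne
      simp only [if_pos h1, if_neg h2, add_zero]
      change S.1 i j • (Matrix.single i j 1 + Matrix.single j i 1) = _
      rw [hS j i, smul_add, smul_single, smul_single, smul_eq_mul, mul_one]
    · by_cases h2 : i = j
      · subst h2
        simp only [if_neg h1, if_true, zero_add]
        change S.1 i i • Matrix.single i i 1 = _
        rw [smul_single, smul_eq_mul, mul_one]
      · simp only [if_neg h1, if_neg h2, add_zero]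
        rfl
  simp only [e1]
  rw [Finset.sum_add_distrib, Finset.sum_add_distrib]
  have e2 : (∑ p : Fin n × Fin n,
      (if p.1 < p.2 then Matrix.single p.2 p.1 (S.1 p.2 p.1) else 0)) =
      ∑ p : Fin n × Fin n, (if p.2 < p.1 then Matrix.single p.1 p.2 (S.1 p.1 p.2) else 0) :=
    Fintype.sum_equiv (Equiv.prodComm _ _) _ _ (fun p => rfl)
  rw [e2, ← Finset.sum_add_distrib, ← Finset.sum_add_distrib]
  have e3 : ∀ p : Fin n × Fin n,
      (if p.1 < p.2 then Matrix.single p.1 p.2 (S.1 p.1 p.2) else 0) +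
      (if p.2 < p.1 then Matrix.single p.1 p.2 (S.1 p.1 p.2) else 0) +
      (if p.1 = p.2 then Matrix.single p.1 p.2 (S.1 p.1 p.2) else 0) =
      Matrix.single p.1 p.2 (S.1 p.1 p.2) := by
    rintro ⟨i, j⟩
    rcases lt_trichotomy i j with h | h | h
    · simp [h, h.ne, h.le.not_gt]
    · simp [h]
    · simp [h, h.ne', h.le.not_gt]
  simp only [e3]
  rw [Fintype.sum_prod_type]
  exact matrix_eq_sum_single _

theorem ub_sy (hn : 3 ≤ n) : UB (Qs n ε) (Set.range fun S : Sy n => sy ε S) := by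
  refine (UB.sum (fun S : Sy n => sy ε S) rfl (fun a b => sy_add a b) Finset.univ
    (fun p : Fin n × Fin n => if p.1 < p.2 then Set.range fun k : ℤ => k • off p.1 p.2 else
      if p.1 = p.2 then Set.range fun k : ℤ => k • dg p.1 else {0}) (fun p _ => ?_)).mono ?_
  · obtain ⟨i, j⟩ := p
    simp only
    split_ifs with h1 h2
    · rw [← Set.range_comp]
      exact ub_off hn h1.ne
    · rw [← Set.range_comp]
      exact ub_dg hn i
    · rw [Set.image_singleton]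
      exact UB.one
  · rintro _ ⟨S, rfl⟩
    refine ⟨S, ⟨fun p => if p.1 < p.2 then S.1 p.1 p.2 • off p.1 p.2 else
      if p.1 = p.2 then S.1 p.1 p.1 • dg p.1 else 0, fun p _ => ?_, sy_decomp S⟩, rfl⟩
    simp only
    split_ifs with h1 h2
    · exact ⟨_, rfl⟩
    · exact ⟨_, rfl⟩
    · rfl

theorem ub_GL (hn : 3 ≤ n) : UB (Qs n ε) (Set.range fun h : GL (Fin n) ℤ => eh ε h) := by
  obtain ⟨N, hN⟩ := H350.bounded_generation n hn
  have hE : UB (Qs n ε) (⋃ p : {p : Fin n × Fin n // p.1 ≠ p.2},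
      Set.range fun k : ℤ => eh ε (el p.1.1 p.1.2 p.2 k)) := UB.iUnion fun p => ub_el hn p.2
  have h1 : UB (Qs n ε) {g | ∃ h : GL (Fin n) ℤ,
      (h : Matrix (Fin n) (Fin n) ℤ).det = 1 ∧ g = eh ε h} := by
    refine (hE.list N).mono ?_
    rintro _ ⟨h, hdet, rfl⟩
    obtain ⟨l, hl, hprod⟩ := hN ⟨_, hdet⟩
    refine ⟨l.map fun t => eh ε (el t.i t.j t.hij t.c), by simpa using hl, ?_, ?_⟩
    · intro x hx
      obtain ⟨t, -, rfl⟩ := List.mem_map.mp hx
      exact Set.mem_iUnion.mpr ⟨⟨(t.i, t.j), t.hij⟩, ⟨t.c, rfl⟩⟩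
    · have e1 : (l.map fun t => el t.i t.j t.hij t.c).prod = h := by
        ext1
        refine Eq.trans ?_ hprod
        clear hprod hl hdet
        induction l with
        | nil => simp
        | cons t l ih => 
          simp only [List.map_cons, List.prod_cons, Units.val_mul]
          rw [ih]
          rfl
      rw [← e1]
      have e2 := map_list_prod (ehHom n ε) (l.map fun t => el t.i t.j t.hij t.c)
      rw [List.map_map] at e2
      exact e2.symm
  let i0 : Fin n := ⟨0, by omega⟩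
  refine (h1.union ((ub_sg1 i0).mul h1)).mono ?_
  rintro _ ⟨h, rfl⟩
  have hu : IsUnit (h : Matrix (Fin n) (Fin n) ℤ).det := by
    rw [← Matrix.isUnit_iff_isUnit_det]
    exact h.isUnit
  rcases Int.isUnit_iff.mp hu with hd | hd
  · exact Or.inl ⟨h, hd, rfl⟩
  · refine Or.inr (Set.mem_mul.mpr ⟨_, rfl, eh ε (sg i0 * h), ⟨sg i0 * h, ?_, rfl⟩, ?_⟩)
    · rw [Units.val_mul, det_mul, det_sg, hd]
      norm_num
    · rw [← eh_mul, ← mul_assoc, sg_mul, one_mul]

/-- The groups `G_ε` have property (T). -/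
theorem propT_GG (hn : 3 ≤ n) (ε : ℤ) : PropT (GG n ε) := by
  have h : UB ((Qs_finite n ε).toFinset : Set (GG n ε)) Set.univ := by
    rw [Set.Finite.coe_toFinset]
    refine ((((ub_W hn).mul (ub_Φ hn)).mul (ub_sy hn)).mul (ub_GL hn)).mono ?_
    intro g _
    rw [eq_prod g]
    exact Set.mul_mem_mul (Set.mul_mem_mul (Set.mul_mem_mul ⟨_, rfl⟩ ⟨_, rfl⟩) ⟨_, rfl⟩) ⟨_, rfl⟩
  exact PropT.of_UB h

end Vale.Agent.P092.R2.H32
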